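import Vale.Agent.P224.R2.H758.Zero

/-!
The identity with defect for injective minimal immersions of surfaces.
-/

namespace Vale.Agent.P224.R2.H758

open MeasureTheory Set Filter Function Real Module Vale.Agent.P224 Vale.Agent.P224.FV
  Vale.Agent.P224.SM2 Vale.Agent.P224.R2.H820
open scoped RealInnerProductSpace Topology ContDiff Manifold

set_option linter.unusedSectionVars false

lemma sphereVol_two : sphereVol 2 = 4 * π := by
  unfold sphereVol
  have e1 : (((2 : ℕ) : ℝ) + 1) / 2 = 1 / 2 + 1 := by norm_num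
  have hp := pi_pos
  rw [e1, Real.Gamma_add_one (by norm_num), Real.Gamma_one_half_eq, rpow_add hp, rpow_one,
    ← sqrt_eq_rpow]
  have h2 : √π ≠ 0 := (sqrt_pos.2 hp).ne'
  field_simp
  norm_num

variable {V W M : Type*} [NormedAddCommGroup V] [InnerProductSpace ℝ V] [FiniteDimensional ℝ V]
  [NormedAddCommGroup W] [InnerProductSpace ℝ W] [FiniteDimensional ℝ W]
  [TopologicalSpace M] [ChartedSpace V M]
  [MeasurableSpace V] [BorelSpace V] [MeasurableSpace M] [BorelSpace M]

/-- the integrated defect of a surface at level T -/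
noncomputable def DM2 (V : Type*) [NormedAddCommGroup V] [InnerProductSpace ℝ V]
    [FiniteDimensional ℝ V] [MeasurableSpace V] [BorelSpace V]
    {W M : Type*} [NormedAddCommGroup W] [InnerProductSpace ℝ W]
    [TopologicalSpace M] [ChartedSpace V M] [MeasurableSpace M]
    (F N : M → W) (T : ℝ) : ℝ :=
  DF (volM V F) 2 F N y2 e2 r2 T

/-- the sharp inequality in dimension 2 with any integrable lower bound of the defect -/
theorem sharp_defect2 [MeasurableSpace W] [BorelSpace W] [IsManifold 𝓘(ℝ, V) ∞ M]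
    [CompactSpace M] [T2Space M] (hm : finrank ℝ V = 2) (hW : finrank ℝ W = 4)
    {F : M → W} (hF : SphImm V F) (hmin : ∀ x n, IsUnitNormal V F x n → meanCurv V F x n = 0)
    {N : M → W} (hNs : ContMDiff 𝓘(ℝ, V) 𝓘(ℝ, W) ∞ N) (hN : ∀ x, IsUnitNormal V F x (N x))
    (hinj : Injective F) {B : ℝ → ℝ} (hBi : IntervalIntegrable B volume 0 1)
    (hB : ∀ T ∈ Ioo (0 : ℝ) 1, B T ≤ DM2 V F N T) :
    2 * π ^ 2 * (volM V F).real univ + ∫ T in (0 : ℝ)..1, B T
      ≤ (volM V F).real univ ^ 2 + 2 * r2 0 * ‖∫ x, N x ∂(volM V F)‖ ^ 2 := by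
  have hfin : IsFiniteMeasure (volM V F) := isFiniteMeasure_volM hF
  have hm1 : 1 ≤ finrank ℝ V := by omega
  have hW' : finrank ℝ W = finrank ℝ V + 2 := by omega
  have hT := twoPt_of_min hm1 hW' hF hmin hNs hN
  have h2 := two_of_min hW' hF hmin hNs hN
  have hcF : Continuous F := hF.smooth.continuous
  have hcN : Continuous N := hNs.continuous
  obtain ⟨hL, hJB⟩ := limits hm1 hW' hF hcN hT hinj
  have hJle := JJ_le hF hT
  have hJP : ∀ ε > 0, ∀ᶠ φ in 𝓝[<] (π / 2), |JJ (volM V F) (finrank ℝ V) F φ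
      - BB (volM V F) (finrank ℝ V) F F φ| ≤ ε := fun ε hε =>
    limit_JB (by omega) hcF hcF hcF.measurable hcF.measurable hinj hF.unit hF.unit hJle hε
  have hpi := pi_pos
  have hM : ∀ φ ∈ Ioo 0 (π / 2), |JJ (volM V F) (finrank ℝ V) F φ| ≤ (volM V F).real univ ^ 2 := by
    intro φ hφ
    rw [abs_of_nonneg (JJ_nonneg hF.unit ⟨by linarith [hφ.1], hφ.2⟩)]
    exact hJle φ ⟨hφ.1.le, hφ.2⟩
  rw [hm] at hL hJB hJP hM h2
  have hnint : Integrable N (volM V F) :=
    hcN.integrable_of_hasCompactSupport (HasCompactSupport.of_compactSpace N)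
  have hnn : Integrable (fun q : M × M => ⟪N q.1, N q.2⟫) ((volM V F).prod (volM V F)) :=
    integrable_param ((volM V F).prod (volM V F)) h2.measurable_pr isCompact_KK h2.pr_mem
      (f := fun k => k.2.2.2) (by fun_prop) (by fun_prop)
  have hfinal := final_defect' h2 le_rfl certP2 (by positivity) certLim2
    (tendsto_GG_zero h2 hnint hnn) hL hJB hJP hM hBi hB
  rw [sphereVol_two] at hfinal
  refine le_trans (le_of_eq ?_) hfinal
  ring

end Vale.Agent.P224.R2.H758
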