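import Vale.Agent.P224.R2.H758.Near2
import Vale.Agent.P224.R2.H614.Asm2

/-!
**The sharp volume bound in dimension two.** Every minimal immersion of a closed connected surface
into the round three-sphere whose image is not contained in a great sphere has area at least
`2 π ^ 2`.
-/

namespace Vale.Agent.P224.R2.H758

open MeasureTheory Set Filter Function Module Vale.Agent.P224 Vale.Agent.P224.R2.H614
open scoped Topology RealInnerProductSpace ENNReal ContDiff Manifold

variable {V W M : Type*} [NormedAddCommGroup V] [InnerProductSpace ℝ V] [FiniteDimensional ℝ V]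
  [NormedAddCommGroup W] [InnerProductSpace ℝ W] [FiniteDimensional ℝ W]
  [TopologicalSpace M] [ChartedSpace V M]
  [MeasurableSpace V] [BorelSpace V] [MeasurableSpace M] [BorelSpace M]
  [IsManifold 𝓘(ℝ, V) ∞ M] [CompactSpace M] [T2Space M] [ConnectedSpace M]
  [MeasurableSpace W] [BorelSpace W]

/-- **Dimension two.** -/
theorem main2 (hV : finrank ℝ V = 2) (hW : finrank ℝ W = finrank ℝ V + 2)
    {F : M → W} (hF : SphImm V F) (hmin : ∀ x n, IsUnitNormal V F x n → meanCurv V F x n = 0)
    (hng : ¬ ∃ a : W, a ≠ 0 ∧ ∀ x, ⟪F x, a⟫ = 0) :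
    ENNReal.ofReal (leastClifford (finrank ℝ V)) ≤ volM V F univ := by
  refine final2 hV hW hF hmin hng fun N hNs hN hinj e he hsm _ h65 => ?_
  have hS0 : 0 < sphereVol 2 := sphereVol_pos' _
  exact near2 hV hW hF hmin hNs hN hinj he (by linarith) hsm

end Vale.Agent.P224.R2.H758
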