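import Vale.Agent.P224.R2.H758.Fn

/-!
The coefficient functions of the two point method in dimension 2: equations and bounds.
-/

namespace Vale.Agent.P224.R2.H758

open MeasureTheory Set Filter Function Real Vale.Agent.P224.SM2
open scoped Topology

noncomputable def y2 (T : ℝ) : ℝ := II 1 T / 2

noncomputable def Z2 (T : ℝ) : ℝ := (1 - T ^ 2) * Jc 1 T / 2

noncomputable def g2 (T : ℝ) : ℝ := ∫ x in T..1, Z2 x / (2 * x)

noncomputable def e2 (T : ℝ) : ℝ := T * g2 T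

noncomputable def h2 (T : ℝ) : ℝ := g2 T / (1 - T ^ 2)

noncomputable def r2 (T : ℝ) : ℝ := ∫ x in T..1, h2 x

lemma kap_pos' {T : ℝ} (hT : T ∈ Ioo (0 : ℝ) 1) : 0 < 1 - T ^ 2 := by nlinarith [hT.1, hT.2]

lemma y2_sub_Z2 {T : ℝ} (hT : T ≠ 0) : y2 T - Z2 T = EE T / 2 := by
  unfold y2 Z2
  rw [← EE_eq hT]
  ring

lemma hasDerivAt_y2 {T : ℝ} (hT : T ∈ Ioo (0 : ℝ) 1) :
    HasDerivAt y2 ((Z2 T - y2 T + T ^ 2 * y2 T) / (T * (1 - T ^ 2))) T := by
  have h := (hasDerivAt_II (a := 1) le_rfl hT.1).div_const 2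
  refine h.congr_deriv ?_
  have h3 := II_rel (a := 1) le_rfl hT.1.ne'
  have h4 := kap_pos' hT
  have h5 := hT.1
  unfold y2 Z2
  rw [← h3]
  field_simp
  ring

lemma hasDerivAt_Z2 {T : ℝ} (hT : T ∈ Ioo (0 : ℝ) 1) :
    HasDerivAt Z2 ((Z2 T - y2 T) / T) T := by
  have h1 := ((hasDerivAt_pow 2 T).const_sub 1).fun_mul (hasDerivAt_Jc (a := 1) le_rfl hT.1)
  have h2 := h1.div_const 2
  refine h2.congr_deriv ?_
  have h3 := Jc_rel' (a := 1) le_rfl hT.1.ne'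
  have h5 := hT.1
  unfold y2 Z2
  push_cast
  field_simp
  linear_combination (-1) * h3

lemma hasDerivAt_Z2' {T : ℝ} (hT : T ∈ Ioo (0 : ℝ) 1) :
    HasDerivAt Z2 (-(EE T / (2 * T))) T := by
  refine (hasDerivAt_Z2 hT).congr_deriv ?_
  have h := y2_sub_Z2 hT.1.ne'
  have h5 := hT.1
  have e : Z2 T - y2 T = -(EE T / 2) := by linarith
  rw [e]
  field_simp

lemma continuousAt_Z2 {T : ℝ} (hT : 0 < T) : ContinuousAt Z2 T := by
  unfold Z2
  have h := (hasDerivAt_Jc (a := 1) le_rfl hT).continuousAt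
  exact ((continuousAt_const.sub (continuousAt_id.pow 2)).mul h).div_const 2

lemma continuousAt_y2 {T : ℝ} (hT : 0 < T) : ContinuousAt y2 T := by
  unfold y2
  exact (hasDerivAt_II (a := 1) le_rfl hT).continuousAt.div_const 2

lemma Z2_one : Z2 1 = 0 := by unfold Z2; norm_num

lemma Z2_nonneg {T : ℝ} (hT : T ∈ Ioc (0 : ℝ) 1) : 0 ≤ Z2 T := by
  have h1 : 0 ≤ 1 - T ^ 2 := by nlinarith [hT.1, hT.2]
  have h2 := Jc_nonneg 1 T
  unfold Z2
  positivity

lemma y2_nonneg (T : ℝ) : 0 ≤ y2 T := by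
  have h : 0 ≤ II 1 T := nonneg_of fun θ hθ => mul_nonneg (wt_nonneg hθ) (Q_nonneg _ _)
  unfold y2
  positivity

/-- logarithmic bound of Z -/
lemma Z2_le {T : ℝ} (hT : T ∈ Ioc (0 : ℝ) 1) : Z2 T ≤ -(π / 4 * log T) := by
  have hpi := pi_pos
  have hc : ContinuousOn (fun x => Z2 x + π / 4 * log x) (Ioc 0 1) := by
    intro x hx
    exact ((continuousAt_Z2 hx.1).add
      (continuousAt_const.mul (continuousAt_log hx.1.ne'))).continuousWithinAt
  have hd : ∀ x ∈ Ioo (0 : ℝ) 1, HasDerivAt (fun x => Z2 x + π / 4 * log x)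
      (-(EE x / (2 * x)) + π / 4 * x⁻¹) x := fun x hx =>
    (hasDerivAt_Z2' hx).fun_add ((hasDerivAt_log hx.1.ne').const_mul _)
  have hm : MonotoneOn (fun x => Z2 x + π / 4 * log x) (Ioc 0 1) := by
    refine monotoneOn_of_deriv_nonneg (convex_Ioc 0 1) hc ?_ ?_
    · rw [interior_Ioc]
      exact fun x hx => (hd x hx).differentiableAt.differentiableWithinAt
    · rw [interior_Ioc]
      intro x hx
      rw [(hd x hx).deriv]
      have h1 : x ^ 2 ≤ 1 := by nlinarith [hx.1, hx.2]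
      have h2 := EE_le h1
      have h3 := hx.1
      have e : -(EE x / (2 * x)) + π / 4 * x⁻¹ = (π / 2 - EE x) / (2 * x) := by
        field_simp
        ring
      rw [e]
      exact div_nonneg (by linarith) (by linarith)
  have h := hm hT ⟨one_pos, le_rfl⟩ hT.2
  simp only [Z2_one, log_one] at h
  linarith

lemma contOn_Zx : ContinuousOn (fun x => Z2 x / (2 * x)) (Ioi 0) := by
  intro x hx
  have h : (2 : ℝ) * x ≠ 0 := mul_ne_zero two_ne_zero (show (0 : ℝ) < x from hx).ne'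
  exact ((continuousAt_Z2 hx).div (by fun_prop) h).continuousWithinAt

lemma intble_Zx {T : ℝ} (hT : T ∈ Ioc (0 : ℝ) 1) :
    IntervalIntegrable (fun x => Z2 x / (2 * x)) volume T 1 := by
  refine (contOn_Zx.mono ?_).intervalIntegrable
  rw [uIcc_of_le hT.2]
  exact fun x hx => hT.1.trans_le hx.1

lemma hasDerivAt_g2 {T : ℝ} (hT : T ∈ Ioo (0 : ℝ) 1) :
    HasDerivAt g2 (-(Z2 T / (2 * T))) T := by
  have hca : ContinuousAt (fun x => Z2 x / (2 * x)) T := contOn_Zx.continuousAt (Ioi_mem_nhds hT.1)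
  exact intervalIntegral.integral_hasDerivAt_left (intble_Zx ⟨hT.1, hT.2.le⟩)
    (contOn_Zx.stronglyMeasurableAtFilter isOpen_Ioi T hT.1) hca

lemma g2_one : g2 1 = 0 := by unfold g2; simp

lemma g2_nonneg {T : ℝ} (hT : T ∈ Ioc (0 : ℝ) 1) : 0 ≤ g2 T := by
  refine intervalIntegral.integral_nonneg hT.2 fun x hx => ?_
  have hx0 : 0 < x := hT.1.trans_le hx.1
  exact div_nonneg (Z2_nonneg ⟨hx0, hx.2⟩) (by linarith)

/-- logarithmic bound of g -/
lemma g2_le_log {T : ℝ} (hT : T ∈ Ioc (0 : ℝ) 1) : g2 T ≤ π / 16 * log T ^ 2 := by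
  have hpi := pi_pos
  have hcg : ContinuousOn g2 (Ioc 0 1) := by
    intro x hx
    have h := intervalIntegral.continuousOn_primitive_interval_left (a := x / 2) (b := 1)
      (f := fun x => Z2 x / (2 * x)) (μ := volume) (by
        rw [uIcc_of_le (by linarith [hx.1, hx.2])]
        refine ContinuousOn.integrableOn_Icc (contOn_Zx.mono fun z hz => ?_)
        exact lt_of_lt_of_le (by linarith [hx.1] : 0 < x / 2) hz.1)
    rw [uIcc_of_le (by linarith [hx.1, hx.2])] at h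
    have h2 : ContinuousWithinAt g2 (Icc (x / 2) 1) x := h x ⟨by linarith [hx.1], hx.2⟩
    refine h2.mono_of_mem_nhdsWithin ?_
    have h3 : Ioi (x / 2) ∈ 𝓝 x := Ioi_mem_nhds (by linarith [hx.1])
    filter_upwards [self_mem_nhdsWithin, mem_nhdsWithin_of_mem_nhds h3] with z hz1 hz2
    exact ⟨(show x / 2 < z from hz2).le, hz1.2⟩
  have hc : ContinuousOn (fun x => g2 x - π / 16 * log x ^ 2) (Ioc 0 1) := by
    refine hcg.sub (continuousOn_const.mul (ContinuousOn.pow ?_ 2))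
    exact fun x hx => (continuousAt_log hx.1.ne').continuousWithinAt
  have hd : ∀ x ∈ Ioo (0 : ℝ) 1, HasDerivAt (fun x => g2 x - π / 16 * log x ^ 2)
      (-(Z2 x / (2 * x)) - π / 16 * (((2 : ℕ) : ℝ) * log x ^ (2 - 1) * x⁻¹)) x := fun x hx =>
    (hasDerivAt_g2 hx).fun_sub (((hasDerivAt_log hx.1.ne').fun_pow 2).const_mul _)
  have hm : MonotoneOn (fun x => g2 x - π / 16 * log x ^ 2) (Ioc 0 1) := by
    refine monotoneOn_of_deriv_nonneg (convex_Ioc 0 1) hc ?_ ?_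
    · rw [interior_Ioc]
      exact fun x hx => (hd x hx).differentiableAt.differentiableWithinAt
    · rw [interior_Ioc]
      intro x hx
      rw [(hd x hx).deriv]
      have h2 := Z2_le ⟨hx.1, hx.2.le⟩
      have h3 := hx.1
      have e : -(Z2 x / (2 * x)) - π / 16 * (((2 : ℕ) : ℝ) * log x ^ (2 - 1) * x⁻¹)
          = (-(π / 4 * log x) - Z2 x) / (2 * x) := by
        push_cast
        rw [pow_one]
        field_simp
        ring
      rw [e]
      exact div_nonneg (by linarith) (by linarith)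
  have h := hm hT ⟨one_pos, le_rfl⟩ hT.2
  simp only [g2_one, log_one] at h
  linarith

lemma log_sq_le {x : ℝ} (hx : x ∈ Ioc (0 : ℝ) 1) :
    log x ^ 2 ≤ 16 * (1 - x) ^ 2 * x ^ (-(1 / 2) : ℝ) := by
  have hx0 := hx.1
  set u : ℝ := x ^ (1 / 4 : ℝ) with hu
  have hu0 : 0 < u := rpow_pos_of_pos hx0 _
  have hu4 : u ^ 4 = x := by
    rw [hu, ← rpow_natCast, ← rpow_mul hx0.le]
    norm_num
  have hu1 : u ≤ 1 := by
    rw [hu]
    exact rpow_le_one hx0.le hx.2 (by norm_num)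
  have h1 : log x = 4 * log u := by
    rw [← hu4, log_pow]
    norm_num
  have h2 : -log u ≤ u⁻¹ - 1 := by
    have := log_le_sub_one_of_pos (inv_pos.2 hu0)
    rwa [log_inv] at this
  have h3 : 0 ≤ -log u := by
    have := log_nonpos hu0.le hu1
    linarith
  have h4 : u⁻¹ - 1 ≤ (1 - x) * u⁻¹ := by
    have h5 : x ≤ u := by
      rw [← hu4]
      have : u ^ 4 ≤ u ^ 1 := pow_le_pow_of_le_one hu0.le hu1 (by norm_num)
      simpa using this
    have h6 : 0 < u⁻¹ := inv_pos.2 hu0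
    have h7 : x * u⁻¹ ≤ 1 := by
      rw [← div_eq_mul_inv, div_le_one hu0]
      exact h5
    linarith
  have h8 : (-log u) ^ 2 ≤ ((1 - x) * u⁻¹) ^ 2 := pow_le_pow_left₀ h3 (h2.trans h4) 2
  have h9 : x ^ (-(1 / 2) : ℝ) = (u⁻¹) ^ 2 := by
    rw [hu, rpow_neg hx0.le, inv_pow, ← rpow_natCast, ← rpow_mul hx0.le]
    norm_num
  rw [h1, h9]
  calc (4 * log u) ^ 2 = 16 * (-log u) ^ 2 := by ring
    _ ≤ 16 * ((1 - x) * u⁻¹) ^ 2 := by linarith
    _ = _ := by ring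

lemma g2_le {T : ℝ} (hT : T ∈ Ioc (0 : ℝ) 1) :
    g2 T ≤ π * (1 - T) ^ 2 * T ^ (-(1 / 2) : ℝ) := by
  have h1 := g2_le_log hT
  have h2 := log_sq_le hT
  have hpi := pi_pos
  calc g2 T ≤ π / 16 * log T ^ 2 := h1
    _ ≤ π / 16 * (16 * (1 - T) ^ 2 * T ^ (-(1 / 2) : ℝ)) :=
        mul_le_mul_of_nonneg_left h2 (by positivity)
    _ = _ := by ring

lemma hasDerivAt_e2 {T : ℝ} (hT : T ∈ Ioo (0 : ℝ) 1) :
    HasDerivAt e2 ((2 * e2 T / T - Z2 T) / 2) T := by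
  have h := (hasDerivAt_id T).fun_mul (hasDerivAt_g2 hT)
  refine h.congr_deriv ?_
  have h5 := hT.1
  simp only [id]
  unfold e2
  field_simp
  ring

lemma e2_nonneg {T : ℝ} (hT : T ∈ Icc (0 : ℝ) 1) : 0 ≤ e2 T := by
  unfold e2
  rcases eq_or_lt_of_le hT.1 with h | h
  · rw [← h]; simp
  · exact mul_nonneg h.le (g2_nonneg ⟨h, hT.2⟩)

lemma e2_le {T : ℝ} (hT : T ∈ Ioc (0 : ℝ) 1) : e2 T ≤ π * (1 - T) ^ 2 * T ^ (1 / 2 : ℝ) := by
  have h := mul_le_mul_of_nonneg_left (g2_le hT) hT.1.le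
  have e : T * T ^ (-(1 / 2) : ℝ) = T ^ (1 / 2 : ℝ) := by
    have h1 : T ^ (1 : ℝ) * T ^ (-(1 / 2) : ℝ) = T ^ (1 + -(1 / 2) : ℝ) := (rpow_add hT.1 _ _).symm
    rw [rpow_one] at h1
    rw [h1]
    norm_num
  calc e2 T ≤ T * (π * (1 - T) ^ 2 * T ^ (-(1 / 2) : ℝ)) := h
    _ = π * (1 - T) ^ 2 * (T * T ^ (-(1 / 2) : ℝ)) := by ring
    _ = _ := by rw [e]

lemma h2_nonneg {T : ℝ} (hT : T ∈ Ioc (0 : ℝ) 1) : 0 ≤ h2 T := by
  have h1 : 0 ≤ 1 - T ^ 2 := by nlinarith [hT.1, hT.2]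
  exact div_nonneg (g2_nonneg hT) h1

lemma h2_le {T : ℝ} (hT : T ∈ Ioc (0 : ℝ) 1) : h2 T ≤ π * (1 - T) * T ^ (-(1 / 2) : ℝ) := by
  have hpi := pi_pos
  have hq : 0 ≤ T ^ (-(1 / 2) : ℝ) := rpow_nonneg hT.1.le _
  rcases eq_or_lt_of_le hT.2 with h | h
  · unfold h2
    rw [h]
    norm_num
  · have h1 : 0 < 1 - T ^ 2 := kap_pos' ⟨hT.1, h⟩
    unfold h2
    rw [div_le_iff₀ h1]
    refine (g2_le hT).trans ?_
    have h3 : 0 ≤ π * (1 - T) * T ^ (-(1 / 2) : ℝ) := by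
      have : 0 ≤ 1 - T := by linarith
      positivity
    have h4 : 1 - T ≤ 1 - T ^ 2 := by nlinarith [hT.1, hT.2]
    calc π * (1 - T) ^ 2 * T ^ (-(1 / 2) : ℝ) = π * (1 - T) * T ^ (-(1 / 2) : ℝ) * (1 - T) := by ring
      _ ≤ _ := mul_le_mul_of_nonneg_left h4 h3

lemma contOn_h2 : ContinuousOn h2 (Ioo 0 1) := by
  intro x hx
  have h1 := (hasDerivAt_g2 hx).continuousAt
  have h2 := (kap_pos' hx).ne'
  exact (h1.div (by fun_prop) h2).continuousWithinAt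

lemma intOn_h2 : IntegrableOn h2 (Icc 0 1) volume := by
  rw [integrableOn_Icc_iff_integrableOn_Ioo]
  have h1 : IntervalIntegrable (fun x : ℝ => π * x ^ (-(1 / 2) : ℝ)) volume 0 1 :=
    (intervalIntegral.intervalIntegrable_rpow' (by norm_num)).const_mul _
  rw [intervalIntegrable_iff_integrableOn_Ioo_of_le zero_le_one] at h1
  refine Integrable.mono' h1 (contOn_h2.aestronglyMeasurable measurableSet_Ioo) ?_
  refine (ae_restrict_iff' measurableSet_Ioo).2 (Eventually.of_forall fun x hx => ?_)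
  have hx' : x ∈ Ioc (0 : ℝ) 1 := ⟨hx.1, hx.2.le⟩
  rw [Real.norm_eq_abs, abs_of_nonneg (h2_nonneg hx')]
  refine (h2_le hx').trans ?_
  have hq : 0 ≤ x ^ (-(1 / 2) : ℝ) := rpow_nonneg hx.1.le _
  have hpi := pi_pos
  have : π * (1 - x) ≤ π := by nlinarith [hx.1]
  exact mul_le_mul_of_nonneg_right this hq

lemma intble_h2 {T : ℝ} (hT : T ∈ Icc (0 : ℝ) 1) : IntervalIntegrable h2 volume T 1 := by
  rw [intervalIntegrable_iff, uIoc_of_le hT.2]
  exact intOn_h2.mono_set fun x hx => ⟨hT.1.trans hx.1.le, hx.2⟩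

lemma hasDerivAt_r2 {T : ℝ} (hT : T ∈ Ioo (0 : ℝ) 1) :
    HasDerivAt r2 (-(e2 T / T) / (1 - T ^ 2)) T := by
  have hca : ContinuousAt h2 T := contOn_h2.continuousAt (Ioo_mem_nhds hT.1 hT.2)
  have h := intervalIntegral.integral_hasDerivAt_left (intble_h2 ⟨hT.1.le, hT.2.le⟩)
    (contOn_h2.stronglyMeasurableAtFilter isOpen_Ioo T hT) hca
  refine h.congr_deriv ?_
  have h5 := hT.1
  unfold e2 h2
  field_simp

lemma continuousOn_r2 : ContinuousOn r2 (Icc 0 1) := by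
  have h1 := intervalIntegral.continuousOn_primitive_interval_left (a := 0) (b := 1)
    (f := h2) (μ := volume) (by rw [uIcc_of_le zero_le_one]; exact intOn_h2)
  rwa [uIcc_of_le zero_le_one] at h1

lemma r2_nonneg {T : ℝ} (hT : T ∈ Ioc (0 : ℝ) 1) : 0 ≤ r2 T :=
  intervalIntegral.integral_nonneg hT.2 fun _ hx => h2_nonneg ⟨hT.1.trans_le hx.1, hx.2⟩

lemma r2_le {T : ℝ} (hT : T ∈ Ioc (0 : ℝ) 1) : r2 T ≤ π * (1 - T) ^ 2 * T ^ (-(1 / 2) : ℝ) := by
  have hpi := pi_pos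
  have h1 : r2 T ≤ ∫ x in T..1, π * (1 - T) * T ^ (-(1 / 2) : ℝ) := by
    refine intervalIntegral.integral_mono_on hT.2 (intble_h2 ⟨hT.1.le, hT.2⟩)
      intervalIntegrable_const fun x hx => ?_
    have hx0 : 0 < x := hT.1.trans_le hx.1
    refine (h2_le ⟨hx0, hx.2⟩).trans ?_
    have h3 : x ^ (-(1 / 2) : ℝ) ≤ T ^ (-(1 / 2) : ℝ) :=
      rpow_le_rpow_of_nonpos hT.1 hx.1 (by norm_num)
    have h4 : 0 ≤ π * (1 - x) := mul_nonneg hpi.le (by linarith [hx.2])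
    have h5 : π * (1 - x) ≤ π * (1 - T) := mul_le_mul_of_nonneg_left (by linarith [hx.1]) hpi.le
    have h6 : 0 ≤ T ^ (-(1 / 2) : ℝ) := rpow_nonneg hT.1.le _
    exact mul_le_mul h5 h3 (rpow_nonneg hx0.le _) (h4.trans h5)
  rw [intervalIntegral.integral_const] at h1
  refine h1.trans (le_of_eq ?_)
  rw [smul_eq_mul]
  ring

end Vale.Agent.P224.R2.H758
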