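import Vale.Agent.P224.R2.H758.Id2

/-!
The sharp inequality with the defect, for coefficient functions on the open interval.
-/

namespace Vale.Agent.P224.R2.H758

open MeasureTheory Set Filter Function Real Vale.Agent.P224.SM2 Vale.Agent.P224.R2.H820
open scoped Topology RealInnerProductSpace

set_option linter.unusedSectionVars false

section

variable {X : Type*} [MeasurableSpace X] {E : Type*} [NormedAddCommGroup E]
  [InnerProductSpace ℝ E] [MeasurableSpace E] [BorelSpace E] [SecondCountableTopology E]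
  {μ : Measure X} [IsFiniteMeasure μ] {m : ℕ} {p n : X → E} {y Z e r : ℝ → ℝ}

open FV in
/-- the lower limit of the functional at T = 1 -/
theorem liminf_GG' (h : Two μ m p n) (hm : 2 ≤ m) (hc : CertP m y Z e r) {lam S M : ℝ}
    (hlam : 0 ≤ lam) (hl : CertLim m y Z e r lam)
    (hL : ∀ ε > 0, ∀ᶠ φ in 𝓝[<] (π / 2), S - ε ≤ JJ μ m p φ)
    (hJB : ∀ ε > 0, ∀ᶠ φ in 𝓝[<] (π / 2), |JJ μ m p φ - BB μ m p n φ| ≤ ε)
    (hJP : ∀ ε > 0, ∀ᶠ φ in 𝓝[<] (π / 2), |JJ μ m p φ - BB μ m p p φ| ≤ ε)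
    (hM : ∀ φ ∈ Ioo 0 (π / 2), |JJ μ m p φ| ≤ M) {ε : ℝ} (hε : 0 < ε) :
    ∀ᶠ φ in 𝓝[<] (π / 2), 2 * lam * S - ε ≤ GG μ m p n y Z e r (sin φ) := by
  have hpi := pi_pos
  obtain ⟨C, hC⟩ := hl.lZ
  set F := 𝓝[<] (π / 2) with hF
  have h0 : ∀ᶠ φ in F, φ ∈ Ioo 0 (π / 2) := Ioo_mem_nhdsLT (by positivity)
  have hsin : Tendsto (fun φ => sin φ) F (𝓝 1) := by
    have := (continuous_sin.tendsto (π / 2)).mono_left (nhdsWithin_le_nhds (s := Iio (π / 2)))
    rwa [sin_pi_div_two] at this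
  have hm2 : (1 : ℝ) ≤ (m : ℝ) - 1 := by
    have : (2 : ℝ) ≤ m := by exact_mod_cast hm
    linarith
  -- the coefficients
  set ay : ℝ → ℝ := fun φ => y (sin φ) / cos φ ^ (m - 2) with hay
  set ae : ℝ → ℝ := fun φ => e (sin φ) / cos φ ^ m with hae
  set aZ : ℝ → ℝ := fun φ => Z (sin φ) / cos φ ^ m with haZ
  set ar : ℝ → ℝ := fun φ => r (sin φ) / (cos φ ^ (m - 2) * (1 - sin φ)) with har
  set b : ℝ → ℝ := fun φ => (ay φ - 2 * aZ φ) / (m - 1) with hb
  have hay1 : Tendsto ay F (𝓝 lam) := hl.ly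
  have hae0 : Tendsto ae F (𝓝 0) := hl.le
  have har0 : Tendsto ar F (𝓝 0) := hl.lr
  -- b is bounded
  have hbb : ∀ᶠ φ in F, |b φ| ≤ (|lam| + 1) + 2 * C := by
    have h1 : ∀ᶠ φ in F, |ay φ - lam| < 1 := by
      have := (Metric.tendsto_nhds.1 hl.ly) 1 one_pos
      filter_upwards [this] with φ hφ
      rwa [Real.dist_eq] at hφ
    filter_upwards [h1, hC] with φ k1 k3
    have k4 : |ay φ| ≤ |lam| + 1 := by
      have := abs_sub_abs_le_abs_sub (ay φ) lam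
      linarith
    have k5 : |ay φ - 2 * aZ φ| ≤ (|lam| + 1) + 2 * C := by
      calc |ay φ - 2 * aZ φ| ≤ |ay φ| + |2 * aZ φ| := abs_sub _ _
        _ = |ay φ| + 2 * |aZ φ| := by rw [abs_mul]; norm_num
        _ ≤ _ := by linarith
    simp only [hb]
    rw [abs_div, abs_of_pos (by linarith : (0 : ℝ) < m - 1)]
    exact (div_le_self (abs_nonneg _) (by linarith)).trans k5
  set Cb : ℝ := (|lam| + 1) + 2 * C with hCb
  -- the remainder
  set JB : ℝ → ℝ := fun φ => JJ μ m p φ - BB μ m p n φ with hJBdef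
  set JP : ℝ → ℝ := fun φ => JJ μ m p φ - BB μ m p p φ with hJPdef
  have tJB : Tendsto JB F (𝓝 0) := tendsto_zero_of_eventually_le hJB
  have tJP : Tendsto JP F (𝓝 0) := tendsto_zero_of_eventually_le hJP
  set η : ℝ → ℝ := fun φ => 4 * ae φ + m * (ar φ * (1 - sin φ)) + 4 * m * (m + 1) * ar φ with hη
  have tη : Tendsto η F (𝓝 0) := by
    have h1 := hae0.const_mul 4
    have h2 := (har0.mul (hsin.const_sub 1)).const_mul (m : ℝ)
    have h3 := har0.const_mul (4 * (m : ℝ) * (m + 1))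
    have := (h1.add h2).add h3
    simpa using this
  set R : ℝ → ℝ := fun φ => |ay φ + sin φ * ay φ - 2 * lam| * M + |sin φ * ay φ| * |JB φ|
    + Cb * ((1 - sin φ) * M + |JP φ|) + |η φ| * M with hR
  have tR : Tendsto R F (𝓝 0) := by
    have h1 : Tendsto (fun φ => |ay φ + sin φ * ay φ - 2 * lam| * M) F (𝓝 0) := by
      have := (((hay1.add (hsin.mul hay1)).sub_const (2 * lam)).abs).mul_const M
      have e0 : |lam + 1 * lam - 2 * lam| * M = 0 := by
        rw [show lam + 1 * lam - 2 * lam = 0 by ring]; simp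
      rwa [e0] at this
    have h2 : Tendsto (fun φ => |sin φ * ay φ| * |JB φ|) F (𝓝 0) := by
      have := (hsin.mul hay1).abs.mul tJB.abs
      simpa using this
    have h3 : Tendsto (fun φ => Cb * ((1 - sin φ) * M + |JP φ|)) F (𝓝 0) := by
      have := ((((hsin.const_sub 1).mul_const M).add tJP.abs)).const_mul Cb
      simpa using this
    have h4 : Tendsto (fun φ => |η φ| * M) F (𝓝 0) := by
      have := (tη.abs).mul_const M
      simpa using this
    have h5 := ((h1.add h2).add h3).add h4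
    rw [show (0 : ℝ) + 0 + 0 + 0 = 0 by norm_num] at h5
    exact h5
  have v1 : ∀ᶠ φ in F, R φ < ε / 2 := (tendsto_order.1 tR).2 _ (by positivity)
  have v2 := hL (ε / (4 * (lam + 1))) (by positivity)
  filter_upwards [h0, v1, v2, hbb] with φ hφ w1 w2 w3
  have hφI : φ ∈ Ioo (-(π / 2)) (π / 2) := ⟨by linarith [hφ.1], hφ.2⟩
  have hcos := cos_pos_of_mem_Ioo hφI
  have hsin0 : 0 < sin φ := sin_pos_of_pos_of_lt_pi hφ.1 (by linarith [hφ.2])
  have hsin1 : sin φ < 1 := (abs_lt.1 (abs_sin_lt_one hφI)).2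
  have hcs : 1 - sin φ ^ 2 = cos φ ^ 2 := by
    have := sin_sq_add_cos_sq φ
    linarith
  have hcm : cos φ ^ m = cos φ ^ (m - 2) * cos φ ^ 2 := by
    rw [← pow_add, Nat.sub_add_cancel (by omega)]
  have hc2 : cos φ ^ 2 ≠ 0 := (pow_pos hcos 2).ne'
  have hc3 : cos φ ^ (m - 2) ≠ 0 := (pow_pos hcos _).ne'
  have h1s : 1 - sin φ ≠ 0 := by linarith
  have hm1 : (m : ℝ) - 1 ≠ 0 := by linarith
  have q1 : ay φ = (1 - sin φ ^ 2) * y (sin φ) / cos φ ^ m := by
    simp only [hay]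
    rw [hcs, hcm]
    field_simp
  have q2 : b φ = ((1 - sin φ ^ 2) * y (sin φ) - 2 * Z (sin φ)) / (m - 1) / cos φ ^ m := by
    simp only [hb, hay, haZ]
    rw [hcs, hcm]
    field_simp
  have key := lowerP h hc (by omega) hφ q1 q2 (f := ae φ) rfl rfl
  have q4 : (1 - sin φ ^ 2) * r (sin φ) / cos φ ^ m = ar φ * (1 - sin φ) := by
    simp only [har]
    rw [hcs, hcm]
    field_simp
  have q5 : ar φ * (1 - sin φ) / (1 - sin φ) = ar φ := by field_simp
  rw [q4, q5] at key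
  have hJM := hM φ hφ
  have hJM1 := (abs_le.1 hJM).2
  have hM0 : 0 ≤ M := (abs_nonneg _).trans hJM
  -- estimates of the terms
  have r1 : 2 * lam * JJ μ m p φ - |ay φ + sin φ * ay φ - 2 * lam| * M
      ≤ (ay φ + sin φ * ay φ) * JJ μ m p φ := by
    have h1 : -(|ay φ + sin φ * ay φ - 2 * lam| * M)
        ≤ (ay φ + sin φ * ay φ - 2 * lam) * JJ μ m p φ := by
      have h2 : |(ay φ + sin φ * ay φ - 2 * lam) * JJ μ m p φ|
          ≤ |ay φ + sin φ * ay φ - 2 * lam| * M := by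
        rw [abs_mul]
        exact mul_le_mul_of_nonneg_left hJM (abs_nonneg _)
      exact (abs_le.1 h2).1
    linarith
  have r2 : sin φ * ay φ * JB φ ≤ |sin φ * ay φ| * |JB φ| := by
    rw [← abs_mul]
    exact le_abs_self _
  have r3 : |b φ| * ((1 - sin φ) * JJ μ m p φ + sin φ * JP φ)
      ≤ Cb * ((1 - sin φ) * M + |JP φ|) := by
    have h1 : (1 - sin φ) * JJ μ m p φ + sin φ * JP φ ≤ (1 - sin φ) * M + |JP φ| := by
      have h2 : (1 - sin φ) * JJ μ m p φ ≤ (1 - sin φ) * M :=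
        mul_le_mul_of_nonneg_left hJM1 (by linarith)
      have h3 : sin φ * JP φ ≤ |JP φ| := by
        calc sin φ * JP φ ≤ |sin φ * JP φ| := le_abs_self _
          _ = |sin φ| * |JP φ| := abs_mul _ _
          _ ≤ 1 * |JP φ| := mul_le_mul_of_nonneg_right (abs_sin_le_one φ) (abs_nonneg _)
          _ = _ := one_mul _
      linarith
    have h4 : 0 ≤ (1 - sin φ) * M + |JP φ| := by
      have : 0 ≤ (1 - sin φ) * M := mul_nonneg (by linarith) hM0
      positivity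
    calc |b φ| * ((1 - sin φ) * JJ μ m p φ + sin φ * JP φ)
        ≤ |b φ| * ((1 - sin φ) * M + |JP φ|) := mul_le_mul_of_nonneg_left h1 (abs_nonneg _)
      _ ≤ _ := mul_le_mul_of_nonneg_right w3 h4
  have r4 : η φ * JJ μ m p φ ≤ |η φ| * M := by
    calc η φ * JJ μ m p φ ≤ |η φ * JJ μ m p φ| := le_abs_self _
      _ = |η φ| * |JJ μ m p φ| := abs_mul _ _
      _ ≤ _ := mul_le_mul_of_nonneg_left hJM (abs_nonneg _)
  have r5 : 2 * lam * (S - ε / (4 * (lam + 1))) ≤ 2 * lam * JJ μ m p φ :=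
    mul_le_mul_of_nonneg_left w2 (by positivity)
  have r6 : 2 * lam * (ε / (4 * (lam + 1))) ≤ ε / 2 := by
    rw [← mul_div_assoc, div_le_div_iff₀ (by positivity) (by positivity)]
    nlinarith
  have hRφ : R φ = |ay φ + sin φ * ay φ - 2 * lam| * M + |sin φ * ay φ| * |JB φ|
    + Cb * ((1 - sin φ) * M + |JP φ|) + |η φ| * M := rfl
  rw [hRφ] at w1
  have e1 : JB φ = JJ μ m p φ - BB μ m p n φ := rfl
  have e2 : JP φ = JJ μ m p φ - BB μ m p p φ := rfl
  have e3 : η φ = 4 * ae φ + m * (ar φ * (1 - sin φ)) + 4 * m * (m + 1) * ar φ := rfl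
  rw [← e1, ← e2, ← e3] at key
  linarith

open FV in
/-- the sharp inequality with an integrable lower bound B of the defect -/
theorem final_defect' (h : Two μ m p n) (hm : 2 ≤ m) (hc : CertP m y Z e r) {lam S M G0 : ℝ}
    (hlam : 0 ≤ lam) (hl : CertLim m y Z e r lam)
    (hG0 : Tendsto (GG μ m p n y Z e r) (𝓝[>] 0) (𝓝 G0))
    (hL : ∀ ε > 0, ∀ᶠ φ in 𝓝[<] (π / 2), S - ε ≤ JJ μ m p φ)
    (hJB : ∀ ε > 0, ∀ᶠ φ in 𝓝[<] (π / 2), |JJ μ m p φ - BB μ m p n φ| ≤ ε)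
    (hJP : ∀ ε > 0, ∀ᶠ φ in 𝓝[<] (π / 2), |JJ μ m p φ - BB μ m p p φ| ≤ ε)
    (hM : ∀ φ ∈ Ioo 0 (π / 2), |JJ μ m p φ| ≤ M) {B : ℝ → ℝ}
    (hBi : IntervalIntegrable B volume 0 1)
    (hB : ∀ T ∈ Ioo (0 : ℝ) 1, B T ≤ DF μ m p n y e r T) :
    2 * lam * S + ∫ T in (0 : ℝ)..1, B T ≤ G0 := by
  have hpi := pi_pos
  have hcont : ContinuousOn (fun T => ∫ τ in (0 : ℝ)..T, B τ) (Icc 0 1) := by
    have h1 : IntegrableOn B (uIcc 0 1) volume := by
      rw [uIcc_of_le zero_le_one]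
      exact (integrableOn_Icc_iff_integrableOn_Ioc).2
        ((intervalIntegrable_iff_integrableOn_Ioc_of_le zero_le_one).1 hBi)
    have := intervalIntegral.continuousOn_primitive_interval h1
    rwa [uIcc_of_le zero_le_one] at this
  -- the identity from 0
  have hstep : ∀ T ∈ Ioo (0 : ℝ) 1, GG μ m p n y Z e r T + ∫ τ in (0 : ℝ)..T, B τ ≤ G0 := by
    intro T hT
    have hlim0 : Tendsto (fun T0 => ∫ τ in (0 : ℝ)..T0, B τ) (𝓝[>] 0) (𝓝 0) := by
      have h1 : Tendsto (fun T0 => ∫ τ in (0 : ℝ)..T0, B τ) (𝓝[Icc 0 1] 0)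
          (𝓝 (∫ τ in (0 : ℝ)..0, B τ)) := hcont 0 ⟨le_rfl, zero_le_one⟩
      rw [intervalIntegral.integral_same] at h1
      refine h1.mono_left (nhdsWithin_le_iff.2 ?_)
      filter_upwards [Ioo_mem_nhdsGT (zero_lt_one (α := ℝ))] with x hx
      exact ⟨hx.1.le, hx.2.le⟩
    have h2 : Tendsto (fun T0 => GG μ m p n y Z e r T + (∫ τ in (0 : ℝ)..T, B τ)
        - ∫ τ in (0 : ℝ)..T0, B τ) (𝓝[>] 0)
        (𝓝 (GG μ m p n y Z e r T + (∫ τ in (0 : ℝ)..T, B τ) - 0)) :=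
      tendsto_const_nhds.sub hlim0
    rw [sub_zero] at h2
    refine le_of_tendsto_of_tendsto h2 hG0 ?_
    filter_upwards [Ioo_mem_nhdsGT hT.1] with T0 hT0
    have hid := GG_eq' h hm hc hT0.1 hT0.2.le hT.2
    have hBi0 : IntervalIntegrable B volume 0 T0 := by
      refine hBi.mono_set ?_
      rw [uIcc_of_le hT0.1.le, uIcc_of_le zero_le_one]
      exact Icc_subset_Icc le_rfl (hT0.2.trans hT.2).le
    have hBi1 : IntervalIntegrable B volume T0 T := by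
      refine hBi.mono_set ?_
      rw [uIcc_of_le hT0.2.le, uIcc_of_le zero_le_one]
      exact Icc_subset_Icc hT0.1.le hT.2.le
    have hadd := intervalIntegral.integral_add_adjacent_intervals hBi0 hBi1
    have hle : ∫ τ in T0..T, B τ ≤ ∫ τ in T0..T, DF μ m p n y e r τ := by
      refine intervalIntegral.integral_mono_on_of_le_Ioo hT0.2.le hBi1 ?_ ?_
      · refine ContinuousOn.intervalIntegrable ?_
        rw [uIcc_of_le hT0.2.le]
        exact (continuousOn_DF' h hc).mono fun x hx =>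
          ⟨hT0.1.trans_le hx.1, hx.2.trans_lt hT.2⟩
      · exact fun x hx => hB x ⟨hT0.1.trans hx.1, hx.2.trans hT.2⟩
    linarith
  refine le_of_forall_pos_le_add fun ε hε => ?_
  have hlim := liminf_GG' h hm hc hlam hl hL hJB hJP hM (half_pos hε)
  have h0 : ∀ᶠ φ in 𝓝[<] (π / 2), φ ∈ Ioo 0 (π / 2) := Ioo_mem_nhdsLT (by positivity)
  have hsin : Tendsto (fun φ => sin φ) (𝓝[<] (π / 2)) (𝓝[Icc 0 1] 1) := by
    refine tendsto_nhdsWithin_iff.2 ⟨?_, ?_⟩
    · have := (continuous_sin.tendsto (π / 2)).mono_left (nhdsWithin_le_nhds (s := Iio (π / 2)))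
      rwa [sin_pi_div_two] at this
    · filter_upwards [h0] with φ hφ
      exact ⟨sin_nonneg_of_nonneg_of_le_pi hφ.1.le (by linarith [hφ.2]), sin_le_one φ⟩
  have hBlim : Tendsto (fun φ => ∫ τ in (0 : ℝ)..(sin φ), B τ) (𝓝[<] (π / 2))
      (𝓝 (∫ τ in (0 : ℝ)..1, B τ)) :=
    (hcont 1 ⟨zero_le_one, le_rfl⟩).tendsto.comp hsin
  have hBe : ∀ᶠ φ in 𝓝[<] (π / 2), (∫ τ in (0 : ℝ)..1, B τ) - ε / 2
      < ∫ τ in (0 : ℝ)..(sin φ), B τ := (tendsto_order.1 hBlim).1 _ (by linarith)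
  obtain ⟨φ, hφ, w1, w2⟩ := (h0.and (hlim.and hBe)).exists
  have hφI : φ ∈ Ioo (-(π / 2)) (π / 2) := ⟨by linarith [hφ.1], hφ.2⟩
  have hsin0 : 0 < sin φ := sin_pos_of_pos_of_lt_pi hφ.1 (by linarith [hφ.2])
  have hsin1 : sin φ < 1 := (abs_lt.1 (abs_sin_lt_one hφI)).2
  have := hstep (sin φ) ⟨hsin0, hsin1⟩
  linarith

end

end Vale.Agent.P224.R2.H758
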