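import Vale.Agent.P224.SM2.Ana2

/-!
The coefficient functions of the two point method in dimension 2.
-/

namespace Vale.Agent.P224.R2.H758

open MeasureTheory Set Filter Function Real Vale.Agent.P224.SM2
open scoped Topology

/-- the second linear relation, by integration by parts -/
theorem Jc_rel' {a : ℝ} (ha : 1 ≤ a) {T : ℝ} (hT : T ≠ 0) :
    3 * T ^ 2 * (1 - T ^ 2) * Lc a T = a * (II a T - (1 + T ^ 2) * Jc a T) := by
  have hpi := pi_pos
  have hFTC := intervalIntegral.integral_eq_sub_of_hasDerivAt_of_le (a := 0) (b := π / 2)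
    (f := fun θ => (sin θ * cos θ) ^ a * Q T θ ^ 3)
    (f' := fun θ => a * (wt a θ * (cos θ ^ 2 - sin θ ^ 2) * Q T θ ^ 3)
      - 3 * (1 - T ^ 2) * (wt a θ * (sin θ ^ 2 * cos θ ^ 2) * Q T θ ^ 5)) (by positivity) ?_ ?_ ?_
  · have e0 : (sin 0 * cos 0) ^ a = 0 := by
      rw [sin_zero, zero_mul]
      exact zero_rpow (by linarith)
    have e1 : (sin (π / 2) * cos (π / 2)) ^ a = 0 := by
      rw [cos_pi_div_two, mul_zero]
      exact zero_rpow (by linarith)
    simp only [e0, e1, zero_mul, sub_zero] at hFTC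
    have hi1 := (intI ha hT (fun θ => cos θ ^ 2 - sin θ ^ 2) (by fun_prop) 3).const_mul a
    have hi2 := (intI ha hT (fun θ => sin θ ^ 2 * cos θ ^ 2) (by fun_prop) 5).const_mul
      (3 * (1 - T ^ 2))
    rw [intervalIntegral.integral_sub hi1 hi2, intervalIntegral.integral_const_mul,
      intervalIntegral.integral_const_mul] at hFTC
    have hL : ∫ θ in (0 : ℝ)..(π / 2), wt a θ * (sin θ ^ 2 * cos θ ^ 2) * Q T θ ^ 5 = Lc a T := by
      unfold Lc
      refine intervalIntegral.integral_congr fun θ _ => ?_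
      ring
    have hK : T ^ 2 * ∫ θ in (0 : ℝ)..(π / 2), wt a θ * (cos θ ^ 2 - sin θ ^ 2) * Q T θ ^ 3
        = II a T - (1 + T ^ 2) * Jc a T := by
      have h1 := II_rel ha hT
      have h2 : ∫ θ in (0 : ℝ)..(π / 2), wt a θ * (cos θ ^ 2 - sin θ ^ 2) * Q T θ ^ 3
          = Kc a T - Jc a T := by
        unfold Kc Jc
        rw [← intervalIntegral.integral_sub
          (intI ha hT (fun θ => cos θ ^ 2) (continuous_cos.pow 2) 3)
          (intI ha hT (fun θ => sin θ ^ 2) (continuous_sin.pow 2) 3)]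
        refine intervalIntegral.integral_congr fun θ _ => ?_
        ring
      rw [h2]
      linarith
    rw [hL] at hFTC
    have h3 : T ^ 2 * (a * ∫ θ in (0 : ℝ)..(π / 2),
        wt a θ * (cos θ ^ 2 - sin θ ^ 2) * Q T θ ^ 3)
        = a * (II a T - (1 + T ^ 2) * Jc a T) := by
      rw [← hK]; ring
    have h4 : T ^ 2 * (a * ∫ θ in (0 : ℝ)..(π / 2),
        wt a θ * (cos θ ^ 2 - sin θ ^ 2) * Q T θ ^ 3) = 3 * T ^ 2 * (1 - T ^ 2) * Lc a T := by
      have h5 : a * ∫ θ in (0 : ℝ)..(π / 2), wt a θ * (cos θ ^ 2 - sin θ ^ 2) * Q T θ ^ 3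
          = 3 * (1 - T ^ 2) * Lc a T := by linarith
      rw [h5]; ring
    rw [← h4, h3]
  · refine ContinuousOn.mul ?_ ((contOn_slice_Q hT).pow 3).continuousOn
    exact ((continuous_sin.mul continuous_cos).rpow_const
      fun _ => Or.inr (by linarith)).continuousOn
  · intro θ hθ
    have hs : 0 < sin θ := sin_pos_of_pos_of_lt_pi hθ.1 (by linarith [hθ.2])
    have hc : 0 < cos θ := cos_pos_of_mem_Ioo ⟨by linarith [hθ.1], hθ.2⟩
    have hsc : sin θ * cos θ ≠ 0 := (mul_pos hs hc).ne'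
    have h1 := ((hasDerivAt_sin θ).fun_mul (hasDerivAt_cos θ)).rpow_const (p := a) (Or.inl hsc)
    have h2 := h1.fun_mul ((hasDerivAt_Q_θ (θ := θ) (D_pos hT)).fun_pow 3)
    refine h2.congr_deriv ?_
    have e : (sin θ * cos θ) ^ a = wt a θ * (sin θ * cos θ) := by
      unfold wt
      rw [rpow_sub_one hsc]
      field_simp
    have e2 : (sin θ * cos θ) ^ (a - 1) = wt a θ := rfl
    rw [e2, e]
    push_cast
    ring
  · have hi1 := (intI ha hT (fun θ => cos θ ^ 2 - sin θ ^ 2) (by fun_prop) 3).const_mul a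
    have hi2 := (intI ha hT (fun θ => sin θ ^ 2 * cos θ ^ 2) (by fun_prop) 5).const_mul
      (3 * (1 - T ^ 2))
    exact hi1.sub hi2

lemma wt_one (θ : ℝ) : wt 1 θ = 1 := by
  unfold wt
  rw [sub_self, rpow_zero]

/-- the complete elliptic integral of the second kind -/
noncomputable def EE (T : ℝ) : ℝ := ∫ θ in (0 : ℝ)..(π / 2), √(sin θ ^ 2 + T ^ 2 * cos θ ^ 2)

lemma continuous_EE : Continuous EE := by
  unfold EE
  refine intervalIntegral.continuous_parametric_intervalIntegral_of_continuous' ?_ 0 (π / 2)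
  fun_prop

lemma EE_zero : EE 0 = 1 := by
  have hpi := pi_pos
  have h : EE 0 = ∫ θ in (0 : ℝ)..(π / 2), sin θ := by
    unfold EE
    refine intervalIntegral.integral_congr fun θ hθ => ?_
    rw [uIcc_of_le (by positivity)] at hθ
    have hs : 0 ≤ sin θ := (sc_nonneg hθ).1
    rw [show sin θ ^ 2 + (0 : ℝ) ^ 2 * cos θ ^ 2 = sin θ ^ 2 by ring, sqrt_sq hs]
  rw [h, integral_sin, cos_zero, cos_pi_div_two]
  norm_num

lemma EE_nonneg (T : ℝ) : 0 ≤ EE T := nonneg_of fun _ _ => sqrt_nonneg _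

lemma EE_le {T : ℝ} (hT : T ^ 2 ≤ 1) : EE T ≤ π / 2 := by
  have hpi := pi_pos
  have h : EE T ≤ ∫ θ in (0 : ℝ)..(π / 2), (1 : ℝ) := by
    unfold EE
    refine intervalIntegral.integral_mono_on (by positivity)
      (Continuous.intervalIntegrable (by fun_prop) _ _) intervalIntegrable_const fun θ _ => ?_
    rw [sqrt_le_one]
    have h1 := sin_sq_add_cos_sq θ
    nlinarith [mul_le_mul_of_nonneg_right hT (sq_nonneg (cos θ))]
  rw [intervalIntegral.integral_const] at h
  simpa using h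

/-- y - Z in terms of the elliptic integral of the second kind -/
theorem EE_eq {T : ℝ} (hT : T ≠ 0) : II 1 T - (1 - T ^ 2) * Jc 1 T = EE T := by
  have hpi := pi_pos
  have hFTC := intervalIntegral.integral_eq_sub_of_hasDerivAt_of_le (a := 0) (b := π / 2)
    (f := fun θ => (sin θ * cos θ) * Q T θ)
    (f' := fun θ => (cos θ ^ 2 - sin θ ^ 2) * Q T θ
      - (1 - T ^ 2) * (sin θ ^ 2 * cos θ ^ 2 * Q T θ ^ 3)) (by positivity) ?_ ?_ ?_
  · simp only [sin_zero, cos_pi_div_two, zero_mul, mul_zero, sub_zero] at hFTC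
    have hQ : Continuous (Q T) := contOn_slice_Q hT
    have i1 : IntervalIntegrable (fun θ => wt 1 θ * Q T θ) volume 0 (π / 2) := by
      simp only [wt_one, one_mul]
      exact hQ.intervalIntegrable _ _
    have i2 : IntervalIntegrable (fun θ => wt 1 θ * sin θ ^ 2 * Q T θ ^ 3) volume 0 (π / 2) := by
      simp only [wt_one, one_mul]
      exact (Continuous.mul (by fun_prop) (hQ.pow 3)).intervalIntegrable _ _
    have i3 : IntervalIntegrable (fun θ => (cos θ ^ 2 - sin θ ^ 2) * Q T θ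
      - (1 - T ^ 2) * (sin θ ^ 2 * cos θ ^ 2 * Q T θ ^ 3)) volume 0 (π / 2) := by
      refine Continuous.intervalIntegrable ?_ _ _
      have := hQ.pow 3
      fun_prop
    have e1 : II 1 T - (1 - T ^ 2) * Jc 1 T - (1 - T ^ 2) * (∫ θ in (0 : ℝ)..(π / 2),
        ((cos θ ^ 2 - sin θ ^ 2) * Q T θ - (1 - T ^ 2) * (sin θ ^ 2 * cos θ ^ 2 * Q T θ ^ 3)))
        = EE T := by
      unfold II Jc EE
      rw [← intervalIntegral.integral_const_mul, ← intervalIntegral.integral_const_mul,
        ← intervalIntegral.integral_sub i1 (i2.const_mul _),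
        ← intervalIntegral.integral_sub (i1.sub (i2.const_mul _)) (i3.const_mul _)]
      refine intervalIntegral.integral_congr fun θ _ => ?_
      simp only [wt_one, one_mul]
      have hD := D_pos (T := T) (θ := θ) hT
      have h1 : √(sin θ ^ 2 + T ^ 2 * cos θ ^ 2) = (sin θ ^ 2 + T ^ 2 * cos θ ^ 2) * Q T θ := by
        unfold Q
        rw [eq_mul_inv_iff_mul_eq₀ (sqrt_pos.2 hD).ne', mul_self_sqrt hD.le]
      have h2 := Q_sq (θ := θ) hD
      have hsc := sin_sq_add_cos_sq θ
      have hc2 : cos θ ^ 2 = 1 - sin θ ^ 2 := by linarith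
      rw [h1]
      set q := Q T θ with hq
      have e : q = q ^ 3 * (sin θ ^ 2 + T ^ 2 * cos θ ^ 2) := by
        calc q = q * 1 := (mul_one _).symm
          _ = q * (q ^ 2 * (sin θ ^ 2 + T ^ 2 * cos θ ^ 2)) := by rw [h2]
          _ = _ := by ring
      rw [hc2] at e ⊢
      set u := sin θ ^ 2 with hu
      have k1 : q - (1 - T ^ 2) * (u * q ^ 3) = T ^ 2 * q ^ 3 := by
        linear_combination e
      have k2 : (1 - u - u) * q - (1 - T ^ 2) * (u * (1 - u) * q ^ 3)
          = q ^ 3 * (T ^ 2 * (1 - u) ^ 2 - u ^ 2) := by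
        linear_combination (1 - u - u) * e
      have k3 : (u + T ^ 2 * (1 - u)) * q = (u + T ^ 2 * (1 - u)) ^ 2 * q ^ 3 := by
        linear_combination (u + T ^ 2 * (1 - u)) * e
      rw [k1, k2, k3]
      ring
    rw [hFTC, mul_zero, sub_zero] at e1
    exact e1
  · exact (Continuous.mul (by fun_prop) (contOn_slice_Q hT)).continuousOn
  · intro θ _
    have h2 := ((hasDerivAt_sin θ).fun_mul (hasDerivAt_cos θ)).fun_mul
      (hasDerivAt_Q_θ (θ := θ) (D_pos hT))
    refine h2.congr_deriv ?_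
    ring
  · refine Continuous.intervalIntegrable ?_ _ _
    have hQ : Continuous (Q T) := contOn_slice_Q hT
    have := hQ.pow 3
    fun_prop

end Vale.Agent.P224.R2.H758
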