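import Vale.Agent.P224.R2.H820.Ident
import Vale.Agent.P224.R2.H758.Co

/-!
The two point identity with its defect, for coefficient functions on the open interval.
-/

namespace Vale.Agent.P224.R2.H758

open MeasureTheory Set Filter Function Real Vale.Agent.P224.SM2 Vale.Agent.P224.R2.H820
open scoped Topology RealInnerProductSpace

set_option linter.unusedSectionVars false

/-- the coefficient functions on the open interval -/
structure CertP (m : ℕ) (y Z e r : ℝ → ℝ) : Prop where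
  cy : ContinuousOn y (Ioo 0 1)
  cZ : ContinuousOn Z (Ioo 0 1)
  ce : ContinuousOn e (Ioo 0 1)
  cr : ContinuousOn r (Ioo 0 1)
  hy : ∀ T ∈ Ioo (0 : ℝ) 1,
    HasDerivAt y ((Z T - y T - ((m : ℝ) - 3) * T ^ 2 * y T) / (T * (1 - T ^ 2))) T
  hZ : ∀ T ∈ Ioo (0 : ℝ) 1, HasDerivAt Z ((m : ℝ) / (2 * T) * (Z T - y T)) T
  he : ∀ T ∈ Ioo (0 : ℝ) 1, HasDerivAt e (((m : ℝ) * e T / T - Z T) / 2) T
  hr : ∀ T ∈ Ioo (0 : ℝ) 1, HasDerivAt r (-(e T / T + ((m : ℝ) - 2) * T * r T) / (1 - T ^ 2)) T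
  e0 : ∀ T ∈ Ioo (0 : ℝ) 1, 0 ≤ e T
  r0 : ∀ T ∈ Ioo (0 : ℝ) 1, 0 ≤ r T
  y0 : ∀ T ∈ Ioo (0 : ℝ) 1, 0 ≤ y T

section

variable {m : ℕ} {y Z e r : ℝ → ℝ}

lemma CertP.hasDerivAt_gK (h : CertP m y Z e r) (hm : 1 ≤ m) {T : ℝ} (hT : T ∈ Ioo (0 : ℝ) 1)
    {k : R4} (hk : k ∈ KK) : HasDerivAt (fun T => gK m y Z e r T k) (gK' m y Z e r T k) T := by
  have hv : 1 - T * k.1 ≠ 0 := (one_sub_pos' ⟨hT.1.le, hT.2⟩ hk.1.2).ne'
  unfold gK gK'
  have e0 : ((m - 1 : ℕ) : ℝ) = (m : ℝ) - 1 := by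
    rw [Nat.cast_sub hm]; simp
  have k0 := hasDerivAt_ker_T (q := m - 1) hv
  rw [e0, Nat.sub_add_cancel hm] at k0
  have k1 := hasDerivAt_ker_T (q := m) hv
  have k2 := hasDerivAt_ker_T (q := m + 1) hv
  have k3 := hasDerivAt_ker_T (q := m + 2) hv
  refine hasDerivAt_gI (h.hy T hT) (h.hZ T hT) (h.he T hT) (h.hr T hT) k0 k1 ?_ ?_
  · refine k2.congr_deriv ?_
    push_cast
    ring
  · refine k3.congr_deriv ?_
    push_cast
    ring

lemma CertP.contOn_gK (h : CertP m y Z e r) :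
    ContinuousOn (uncurry (gK m y Z e r)) (Ioo 0 1 ×ˢ KK) := by
  have hsub : Ioo (0 : ℝ) 1 ×ˢ KK ⊆ Ico 0 1 ×ˢ KK := prod_mono Ioo_subset_Ico_self subset_rfl
  have h0 := (contOn_ker (m - 1)).mono hsub
  have h1 := (contOn_ker m).mono hsub
  have h2 := (contOn_ker (m + 1)).mono hsub
  have h3 := (contOn_ker (m + 2)).mono hsub
  have c1 : ContinuousOn (fun z : ℝ × R4 => y z.1) (Ioo 0 1 ×ˢ KK) :=
    h.cy.comp continuousOn_fst (fun z hz => hz.1)
  have c2 : ContinuousOn (fun z : ℝ × R4 => Z z.1) (Ioo 0 1 ×ˢ KK) :=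
    h.cZ.comp continuousOn_fst (fun z hz => hz.1)
  have c3 : ContinuousOn (fun z : ℝ × R4 => e z.1) (Ioo 0 1 ×ˢ KK) :=
    h.ce.comp continuousOn_fst (fun z hz => hz.1)
  have c4 : ContinuousOn (fun z : ℝ × R4 => r z.1) (Ioo 0 1 ×ˢ KK) :=
    h.cr.comp continuousOn_fst (fun z hz => hz.1)
  exact contOn_gI continuousOn_fst c1 c2 c3 c4 (by fun_prop) (by fun_prop) (by fun_prop)
    (by fun_prop) h0 h1 h2 h3

lemma CertP.contOn_gK' (h : CertP m y Z e r) :
    ContinuousOn (uncurry (gK' m y Z e r)) (Ioo 0 1 ×ˢ KK) := by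
  have hsub : Ioo (0 : ℝ) 1 ×ˢ KK ⊆ Ico 0 1 ×ˢ KK := prod_mono Ioo_subset_Ico_self subset_rfl
  have h0 := (contOn_ker (m - 1)).mono hsub
  have h1 := (contOn_ker m).mono hsub
  have h2 := (contOn_ker (m + 1)).mono hsub
  have h3 := (contOn_ker (m + 2)).mono hsub
  have h4 := (contOn_ker (m + 3)).mono hsub
  have c1 : ContinuousOn (fun z : ℝ × R4 => y z.1) (Ioo 0 1 ×ˢ KK) :=
    h.cy.comp continuousOn_fst (fun z hz => hz.1)
  have c2 : ContinuousOn (fun z : ℝ × R4 => Z z.1) (Ioo 0 1 ×ˢ KK) :=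
    h.cZ.comp continuousOn_fst (fun z hz => hz.1)
  have c3 : ContinuousOn (fun z : ℝ × R4 => e z.1) (Ioo 0 1 ×ˢ KK) :=
    h.ce.comp continuousOn_fst (fun z hz => hz.1)
  have c4 : ContinuousOn (fun z : ℝ × R4 => r z.1) (Ioo 0 1 ×ˢ KK) :=
    h.cr.comp continuousOn_fst (fun z hz => hz.1)
  have hS : ∀ a ∈ (Ioo (0 : ℝ) 1 ×ˢ KK : Set (ℝ × R4)), a.1 ∈ Ioo (0 : ℝ) 1 := fun a ha => ha.1
  exact contOn_gI' continuousOn_fst c1 c2 c3 c4 (contOn_y' continuousOn_fst c1 c2 hS)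
    (contOn_Z' continuousOn_fst c1 c2 hS) (contOn_e' continuousOn_fst c3 c2 hS)
    (contOn_r' continuousOn_fst c3 c4 hS) (by fun_prop) (by fun_prop) (by fun_prop)
    (by fun_prop) h0 h1 h2 h3 h4

lemma CertP.contOn_FK (h : CertP m y Z e r) :
    ContinuousOn (uncurry fun T k => FK m T (y T) (e T) (r T) k) (Ioo 0 1 ×ˢ KK) := by
  have hsub : Ioo (0 : ℝ) 1 ×ˢ KK ⊆ Ico 0 1 ×ˢ KK := prod_mono Ioo_subset_Ico_self subset_rfl
  have h1 := (contOn_ker m).mono hsub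
  have c1 : ContinuousOn (fun z : ℝ × R4 => y z.1) (Ioo 0 1 ×ˢ KK) :=
    h.cy.comp continuousOn_fst (fun z hz => hz.1)
  have c3 : ContinuousOn (fun z : ℝ × R4 => e z.1) (Ioo 0 1 ×ˢ KK) :=
    h.ce.comp continuousOn_fst (fun z hz => hz.1)
  have c4 : ContinuousOn (fun z : ℝ × R4 => r z.1) (Ioo 0 1 ×ˢ KK) :=
    h.cr.comp continuousOn_fst (fun z hz => hz.1)
  exact contOn_FF continuousOn_fst c1 c3 c4 (by fun_prop) (by fun_prop) (by fun_prop)
    (by fun_prop) (by fun_prop) h1 fun z hz =>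
      (one_sub_pos' ⟨hz.1.1.le, hz.1.2⟩ hz.2.1.2).ne'

end

section

variable {Y : Type*} [MeasurableSpace Y] (ν : Measure Y) [IsFiniteMeasure ν] {A : Type*}
  [TopologicalSpace A] [MeasurableSpace A] {κ : Y → A} {K : Set A}

omit [MeasurableSpace Y] in
lemma contOn_slice' {g : ℝ → A → ℝ} {S : Set ℝ} (h : ContinuousOn (uncurry g) (S ×ˢ K)) {T : ℝ}
    (hT : T ∈ S) : ContinuousOn (g T) K := by
  have h2 : ContinuousOn (fun k : A => (T, k)) K := by fun_prop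
  exact h.comp h2 (fun k hk => ⟨hT, hk⟩)

/-- continuity of a parametric integral -/
lemma contOn_param' (hκ : Measurable κ) (hK : IsCompact K) (hκK : ∀ y, κ y ∈ K) {g : ℝ → A → ℝ}
    (hgm : ∀ T, Measurable (g T)) (hgc : ContinuousOn (uncurry g) (Ioo 0 1 ×ˢ K)) :
    ContinuousOn (fun T => ∫ y, g T (κ y) ∂ν) (Ioo 0 1) := by
  intro T₀ hT₀
  set a : ℝ := T₀ / 2 with ha
  set b : ℝ := (T₀ + 1) / 2 with hb
  have ha0 : 0 < a := by rw [ha]; linarith [hT₀.1]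
  have haT : a < T₀ := by rw [ha]; linarith [hT₀.1]
  have hb1 : b < 1 := by rw [hb]; linarith [hT₀.2]
  have hb0 : T₀ < b := by rw [hb]; linarith [hT₀.2]
  have hsub : Icc a b ×ˢ K ⊆ Ioo 0 1 ×ˢ K :=
    prod_mono (fun T hT => ⟨ha0.trans_le hT.1, hT.2.trans_lt hb1⟩) subset_rfl
  obtain ⟨C, hC⟩ := (isCompact_Icc.prod hK).exists_bound_of_continuousOn (hgc.mono hsub)
  have hev : ∀ᶠ T in 𝓝[Ioo 0 1] T₀, T ∈ Icc a b := by
    filter_upwards [nhdsWithin_le_nhds (Icc_mem_nhds haT hb0)] with T hT using hT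
  refine continuousWithinAt_of_dominated (bound := fun _ => C)
    (Eventually.of_forall fun T => ((hgm T).comp hκ).aestronglyMeasurable) ?_
    (integrable_const C) ?_
  · filter_upwards [hev] with T hT
    exact Eventually.of_forall fun y => hC (T, κ y) ⟨hT, hκK y⟩
  · refine Eventually.of_forall fun y => ?_
    have h1 : ContinuousWithinAt (uncurry g) (Ioo 0 1 ×ˢ K) (T₀, κ y) := hgc _ ⟨hT₀, hκK y⟩
    have h2 : ContinuousWithinAt (fun T : ℝ => (T, κ y)) (Ioo 0 1) T₀ := by fun_prop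
    exact ContinuousWithinAt.comp (f := fun T : ℝ => (T, κ y)) h1 h2 (fun T hT => ⟨hT, hκK y⟩)

/-- differentiation of a parametric integral -/
lemma deriv_param' (hκ : Measurable κ) (hK : IsCompact K) (hκK : ∀ y, κ y ∈ K)
    {g g' : ℝ → A → ℝ} (hgm : ∀ T, Measurable (g T)) (hg'm : ∀ T, Measurable (g' T))
    (hgc : ContinuousOn (uncurry g) (Ioo 0 1 ×ˢ K))
    (hg'c : ContinuousOn (uncurry g') (Ioo 0 1 ×ˢ K))
    (hd : ∀ T ∈ Ioo (0 : ℝ) 1, ∀ k ∈ K, HasDerivAt (fun T => g T k) (g' T k) T)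
    {T₀ : ℝ} (hT₀ : T₀ ∈ Ioo (0 : ℝ) 1) :
    HasDerivAt (fun T => ∫ y, g T (κ y) ∂ν) (∫ y, g' T₀ (κ y) ∂ν) T₀ := by
  set a : ℝ := T₀ / 2 with ha
  set b : ℝ := (T₀ + 1) / 2 with hb
  have ha0 : 0 < a := by rw [ha]; linarith [hT₀.1]
  have haT : a < T₀ := by rw [ha]; linarith [hT₀.1]
  have hb1 : b < 1 := by rw [hb]; linarith [hT₀.2]
  have hb0 : T₀ < b := by rw [hb]; linarith [hT₀.2]
  have hsub : Icc a b ×ˢ K ⊆ Ioo 0 1 ×ˢ K :=
    prod_mono (fun T hT => ⟨ha0.trans_le hT.1, hT.2.trans_lt hb1⟩) subset_rfl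
  obtain ⟨C, hC⟩ := (isCompact_Icc.prod hK).exists_bound_of_continuousOn (hg'c.mono hsub)
  have hc0 : ContinuousOn (g T₀) K := contOn_slice' hgc hT₀
  have key := hasDerivAt_integral_of_dominated_loc_of_deriv_le (μ := ν) (s := Ioo a b) (x₀ := T₀)
    (F := fun T y => g T (κ y)) (F' := fun T y => g' T (κ y)) (bound := fun _ => C)
    (isOpen_Ioo.mem_nhds ⟨haT, hb0⟩)
    (Eventually.of_forall fun T => ((hgm T).comp hκ).aestronglyMeasurable)
    (integrable_param ν hκ hK hκK (hgm T₀) hc0)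
    ((hg'm T₀).comp hκ).aestronglyMeasurable
    (Eventually.of_forall fun y T hT => hC (T, κ y) ⟨⟨hT.1.le, hT.2.le⟩, hκK y⟩)
    (integrable_const C)
    (Eventually.of_forall fun y T hT =>
      hd T ⟨ha0.trans hT.1, hT.2.trans hb1⟩ (κ y) (hκK y))
  exact key.2

end

section

variable {X : Type*} [MeasurableSpace X] {E : Type*} [NormedAddCommGroup E]
  [InnerProductSpace ℝ E] [MeasurableSpace E] [BorelSpace E] [SecondCountableTopology E]

variable {μ : Measure X} [IsFiniteMeasure μ] {m : ℕ} {p n : X → E} {y Z e r : ℝ → ℝ}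

lemma integrable_FK' (h : Two μ m p n) (hc : CertP m y Z e r) {T : ℝ} (hT : T ∈ Ioo (0 : ℝ) 1) :
    Integrable (fun q => FK m T (y T) (e T) (r T) (SM2.pr p n q)) (μ.prod μ) :=
  integrable_param (μ.prod μ) h.measurable_pr isCompact_KK h.pr_mem (measurable_FK T _ _ _)
    (contOn_slice' hc.contOn_FK hT)

theorem continuousOn_DF' (h : Two μ m p n) (hc : CertP m y Z e r) :
    ContinuousOn (DF μ m p n y e r) (Ioo 0 1) :=
  contOn_param' (μ.prod μ) h.measurable_pr isCompact_KK h.pr_mem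
    (g := fun T k => FK m T (y T) (e T) (r T) k) (fun T => measurable_FK T _ _ _) hc.contOn_FK

theorem continuousOn_GG' (h : Two μ m p n) (hc : CertP m y Z e r) :
    ContinuousOn (GG μ m p n y Z e r) (Ioo 0 1) :=
  contOn_param' (μ.prod μ) h.measurable_pr isCompact_KK h.pr_mem (fun T => measurable_gK T)
    hc.contOn_gK

/-- the derivative of the two point functional is minus the defect -/
theorem hasDerivAt_GG' (h : Two μ m p n) (hm : 2 ≤ m) (hc : CertP m y Z e r) {T : ℝ}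
    (hT : T ∈ Ioo (0 : ℝ) 1) :
    HasDerivAt (GG μ m p n y Z e r) (-DF μ m p n y e r T) T := by
  have hmeas := h.measurable_pr
  have hder : HasDerivAt (GG μ m p n y Z e r)
      (∫ q, gK' m y Z e r T (SM2.pr p n q) ∂(μ.prod μ)) T :=
    deriv_param' (μ.prod μ) hmeas isCompact_KK h.pr_mem (fun T => measurable_gK T)
      (fun T => measurable_gK' T) hc.contOn_gK hc.contOn_gK'
      (fun T hT k hk => hc.hasDerivAt_gK (by omega) hT hk) hT
  refine hder.congr_deriv ?_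
  have hT' : T ∈ Ico (0 : ℝ) 1 := ⟨hT.1.le, hT.2⟩
  obtain ⟨i1, e1⟩ := h.integral_RK hT (y T) (e T) (r T)
  obtain ⟨i2, e2⟩ := h.integral_RK_sw hT (y T) (e T) (r T)
  have i3 := integrable_FK' h hc hT
  have hk : 1 - T ^ 2 ≠ 0 := by
    have : 0 < 1 - T ^ 2 := by nlinarith [hT.1, hT.2]
    exact this.ne'
  have hm1 : (m : ℝ) - 1 ≠ 0 := by
    have : (2 : ℝ) ≤ m := by exact_mod_cast hm
    linarith
  have hv : ∀ q, 0 < 1 - T * (SM2.pr p n q).1 := fun q => one_sub_pos' hT' (h.pr_mem q).1.2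
  have key : ∀ q, gK' m y Z e r T (SM2.pr p n q) = -(RK m T (y T) (e T) (r T) (SM2.pr p n q)
      + RK m T (y T) (e T) (r T) (sw (SM2.pr p n q))) / 2
      - FK m T (y T) (e T) (r T) (SM2.pr p n q) := by
    intro q
    have h0 : ker T (m - 1) (SM2.pr p n q).1 = ker T m (SM2.pr p n q).1 * (1 - T * (SM2.pr p n q).1) := by
      have h1 := ker_succ_div T (SM2.pr p n q).1 (m - 1) 1
      rw [Nat.sub_add_cancel (by omega)] at h1
      rw [h1, pow_one, div_mul_cancel₀ _ (hv q).ne']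
    have h1 := ker_succ_div T (SM2.pr p n q).1 m 1
    have h2 := ker_succ_div T (SM2.pr p n q).1 m 2
    have h3 := ker_succ_div T (SM2.pr p n q).1 m 3
    rw [pow_one] at h1
    have hid := key_identity (m : ℝ) T (y T) (Z T) (e T) (r T) _ _ _ _ (SM2.pr p n q).1
      (SM2.pr p n q).2.1 (SM2.pr p n q).2.2.1 (SM2.pr p n q).2.2.2 (1 - T * (SM2.pr p n q).1)
      (ker T m (SM2.pr p n q).1) hT.1.ne' hk hm1 (hv q).ne' rfl rfl rfl rfl rfl
    unfold gK'
    rw [h0, h1, h2, h3, hid]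
    unfold RK FK sw
    ring
  simp only [key]
  have i12 : Integrable (fun q => RK m T (y T) (e T) (r T) (SM2.pr p n q)
      + RK m T (y T) (e T) (r T) (sw (SM2.pr p n q))) (μ.prod μ) := i1.add i2
  have i4 : Integrable (fun q => -(RK m T (y T) (e T) (r T) (SM2.pr p n q)
      + RK m T (y T) (e T) (r T) (sw (SM2.pr p n q))) / 2) (μ.prod μ) := i12.neg.div_const 2
  rw [integral_sub i4 i3, integral_div, integral_neg, integral_add i1 i2, e1, e2]
  unfold DF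
  norm_num

/-- the exact identity on [T0, T] -/
theorem GG_eq' (h : Two μ m p n) (hm : 2 ≤ m) (hc : CertP m y Z e r) {T0 T : ℝ}
    (hT0 : 0 < T0) (hTT : T0 ≤ T) (hT : T < 1) :
    GG μ m p n y Z e r T + ∫ τ in T0..T, DF μ m p n y e r τ = GG μ m p n y Z e r T0 := by
  have hsub : Icc T0 T ⊆ Ioo 0 1 := fun x hx => ⟨hT0.trans_le hx.1, hx.2.trans_lt hT⟩
  have hi : IntervalIntegrable (fun τ => -DF μ m p n y e r τ) volume T0 T := by
    refine ContinuousOn.intervalIntegrable ?_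
    rw [uIcc_of_le hTT]
    exact ((continuousOn_DF' h hc).mono hsub).neg
  have h1 := intervalIntegral.integral_eq_sub_of_hasDerivAt_of_le hTT
    ((continuousOn_GG' h hc).mono hsub)
    (fun x hx => hasDerivAt_GG' h hm hc ⟨hT0.trans hx.1, hx.2.trans hT⟩) hi
  rw [intervalIntegral.integral_neg] at h1
  linarith

open FV in
/-- integrated lower bound -/
theorem lowerP (h : Two μ m p n) (hc : CertP m y Z e r) (hm : 2 ≤ m) {φ : ℝ}
    (hφ : φ ∈ Ioo 0 (π / 2)) {a b f ρ : ℝ}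
    (ha : a = (1 - sin φ ^ 2) * y (sin φ) / cos φ ^ m)
    (hb : b = ((1 - sin φ ^ 2) * y (sin φ) - 2 * Z (sin φ)) / (m - 1) / cos φ ^ m)
    (hf : f = e (sin φ) / cos φ ^ m)
    (hρ : ρ = (1 - sin φ ^ 2) * r (sin φ) / cos φ ^ m) :
    (a + sin φ * a) * JJ μ m p φ - sin φ * a * (JJ μ m p φ - BB μ m p n φ)
      - |b| * ((1 - sin φ) * JJ μ m p φ + sin φ * (JJ μ m p φ - BB μ m p p φ))
      - (4 * f + m * ρ + 4 * m * (m + 1) * (ρ / (1 - sin φ))) * JJ μ m p φ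
      ≤ GG μ m p n y Z e r (sin φ) := by
  have hpi := pi_pos
  have hφI : φ ∈ Ioo (-(π / 2)) (π / 2) := ⟨by linarith [hφ.1], hφ.2⟩
  have hcos := cos_pos_of_mem_Ioo hφI
  have hsin0 : 0 < sin φ := sin_pos_of_pos_of_lt_pi hφ.1 (by linarith [hφ.2])
  have hsin1 : sin φ < 1 := (abs_lt.1 (abs_sin_lt_one hφI)).2
  have hT : sin φ ∈ Ioo (0 : ℝ) 1 := ⟨hsin0, hsin1⟩
  have hT' : sin φ ∈ Ico (0 : ℝ) 1 := ⟨hsin0.le, hsin1⟩
  have hk0 : cos φ ^ m ≠ 0 := (pow_pos hcos m).ne'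
  have ck := contOn_ker' hT' m
  have mk := measurable_ker (sin φ) m
  have i1 : Integrable (fun q => cos φ ^ m * ker (sin φ) m (SM2.pr p n q).1) (μ.prod μ) :=
    integrable_param (μ.prod μ) h.measurable_pr isCompact_KK h.pr_mem
      (f := fun k => cos φ ^ m * ker (sin φ) m k.1) (by fun_prop) (continuousOn_const.mul ck)
  have i2 : Integrable (fun q => (SM2.pr p n q).2.2.2 * (cos φ ^ m * ker (sin φ) m (SM2.pr p n q).1))
      (μ.prod μ) :=
    integrable_param (μ.prod μ) h.measurable_pr isCompact_KK h.pr_mem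
      (f := fun k => k.2.2.2 * (cos φ ^ m * ker (sin φ) m k.1)) (by fun_prop)
      (ContinuousOn.mul (by fun_prop) (continuousOn_const.mul ck))
  have i3 : Integrable (fun q => (SM2.pr p n q).1 * (cos φ ^ m * ker (sin φ) m (SM2.pr p n q).1))
      (μ.prod μ) :=
    integrable_param (μ.prod μ) h.measurable_pr isCompact_KK h.pr_mem
      (f := fun k => k.1 * (cos φ ^ m * ker (sin φ) m k.1)) (by fun_prop)
      (ContinuousOn.mul (by fun_prop) (continuousOn_const.mul ck))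
  have iG : Integrable (fun q => gK m y Z e r (sin φ) (SM2.pr p n q)) (μ.prod μ) :=
    integrable_param (μ.prod μ) h.measurable_pr isCompact_KK h.pr_mem (measurable_gK _)
      (contOn_slice' hc.contOn_gK hT)
  have eJ : JJ μ m p φ = ∫ q, cos φ ^ m * ker (sin φ) m (SM2.pr p n q).1 ∂(μ.prod μ) := by
    unfold JJ
    simp only [cf_ker]
    rfl
  have eB : BB μ m p n φ = ∫ q, (SM2.pr p n q).2.2.2 * (cos φ ^ m * ker (sin φ) m (SM2.pr p n q).1)
      ∂(μ.prod μ) := by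
    unfold BB
    simp only [cf_ker]
    rfl
  have eP : BB μ m p p φ = ∫ q, (SM2.pr p n q).1 * (cos φ ^ m * ker (sin φ) m (SM2.pr p n q).1)
      ∂(μ.prod μ) := by
    unfold BB
    simp only [cf_ker]
    rfl
  set η : ℝ := 4 * f + m * ρ + 4 * m * (m + 1) * (ρ / (1 - sin φ)) with hη
  have hpt : ∀ q, (a - |b| - η) * (cos φ ^ m * ker (sin φ) m (SM2.pr p n q).1)
      + (sin φ * a) * ((SM2.pr p n q).2.2.2 * (cos φ ^ m * ker (sin φ) m (SM2.pr p n q).1))
      + (|b| * sin φ) * ((SM2.pr p n q).1 * (cos φ ^ m * ker (sin φ) m (SM2.pr p n q).1))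
      ≤ gK m y Z e r (sin φ) (SM2.pr p n q) := by
    intro q
    have hv := one_sub_pos' hT' (h.pr_mem q).1.2
    have h0 : ker (sin φ) (m - 1) (SM2.pr p n q).1
        = ker (sin φ) m (SM2.pr p n q).1 * (1 - sin φ * (SM2.pr p n q).1) := by
      have h1 := ker_succ_div (sin φ) (SM2.pr p n q).1 (m - 1) 1
      rw [Nat.sub_add_cancel (by omega)] at h1
      rw [h1, pow_one, div_mul_cancel₀ _ hv.ne']
    have h1 := ker_succ_div (sin φ) (SM2.pr p n q).1 m 1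
    have h2 := ker_succ_div (sin φ) (SM2.pr p n q).1 m 2
    rw [pow_one] at h1
    have hQ : 0 ≤ ker (sin φ) m (SM2.pr p n q).1 := inv_nonneg.2 (pow_nonneg hv.le _)
    have hlow := gI_lower (m := (m : ℝ)) (T := sin φ) (y := y (sin φ)) (Z := Z (sin φ))
      (e := e (sin φ)) (r := r (sin φ)) (s := (SM2.pr p n q).1) (t := (SM2.pr p n q).2.1)
      (p := (SM2.pr p n q).2.2.1) (c := (SM2.pr p n q).2.2.2) (v := 1 - sin φ * (SM2.pr p n q).1)
      (Q := ker (sin φ) m (SM2.pr p n q).1) (k := cos φ ^ m * ker (sin φ) m (SM2.pr p n q).1)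
      (a := a) (b := b) (f := f) (ρ := ρ)
      (Nat.cast_nonneg m) hsin0 hsin1 (hc.r0 _ hT) (hc.e0 _ hT) ?_ rfl hQ ?_ ?_ ?_ ?_ ?_ ?_ ?_ ?_
    · unfold gK
      rw [h0, h1, h2]
      refine le_trans (le_of_eq ?_) hlow
      rw [hη]
      ring
    · have := (h.pr_mem q).1.2
      have h4 : sin φ * (SM2.pr p n q).1 ≤ sin φ * 1 := mul_le_mul_of_nonneg_left this hsin0.le
      linarith
    · exact bessel (h.np _) (h.np _) (h.nn _) (h.pn _)
    · have h5 := bessel (a := p q.2) (h.np _) (h.np q.1) (h.nn q.1) (h.pn _)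
      rw [real_inner_comm, real_inner_comm (n q.1)] at h5
      exact h5
    · exact abs_le.2 (h.pr_mem q).2.2.2
    · rw [ha]; field_simp
    · rw [hb]; field_simp
    · rw [hf]; field_simp
    · rw [hρ]; field_simp
    · positivity
  obtain ⟨j, e5⟩ := integral_comb3 i1 i2 i3 (a - |b| - η) (sin φ * a) (|b| * sin φ)
  have hint := integral_mono j iG hpt
  rw [e5, ← eJ, ← eB, ← eP] at hint
  have e6 : GG μ m p n y Z e r (sin φ) = ∫ q, gK m y Z e r (sin φ) (SM2.pr p n q) ∂(μ.prod μ) := rfl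
  rw [e6]
  refine le_trans (le_of_eq ?_) hint
  ring

end

end Vale.Agent.P224.R2.H758
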