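import Vale.Agent.P224.R2.H758.Geo2

/-!
Elementary bounds of the coefficient functions in dimension 2 and a lower bound of the defect at
one level.
-/

namespace Vale.Agent.P224.R2.H758

open MeasureTheory Set Filter Function Real Vale.Agent.P224.SM2
open scoped Topology

lemma two_log_le {y : ℝ} (hy : 1 ≤ y) : 2 * log y ≤ y - y⁻¹ := by
  have hd : ∀ x ∈ Ioi (1 : ℝ), HasDerivAt (fun x => x - x⁻¹ - 2 * log x)
      (1 - -(x ^ 2)⁻¹ - 2 * x⁻¹) x := fun x hx => by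
    have h0 : x ≠ 0 := (lt_trans one_pos hx).ne'
    exact ((hasDerivAt_id x).fun_sub (hasDerivAt_inv h0)).fun_sub
      ((hasDerivAt_log h0).const_mul 2)
  have hm : MonotoneOn (fun x : ℝ => x - x⁻¹ - 2 * log x) (Ici 1) := by
    refine monotoneOn_of_deriv_nonneg (convex_Ici 1) ?_ ?_ ?_
    · intro x hx
      have h0 : x ≠ 0 := (lt_of_lt_of_le one_pos hx).ne'
      exact (((continuousAt_id).sub (continuousAt_inv₀ h0)).sub
        (continuousAt_const.mul (continuousAt_log h0))).continuousWithinAt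
    · rw [interior_Ici]
      exact fun x hx => (hd x hx).differentiableAt.differentiableWithinAt
    · rw [interior_Ici]
      intro x hx
      rw [(hd x hx).deriv]
      have e : 1 - -(x ^ 2)⁻¹ - 2 * x⁻¹ = (1 - x⁻¹) ^ 2 := by rw [← inv_pow]; ring
      rw [e]
      positivity
  have h := hm (mem_Ici.2 le_rfl) hy hy
  simp only [log_one] at h
  linarith

lemma log_sq_le2 {x : ℝ} (hx : x ∈ Ioc (0 : ℝ) 1) : log x ^ 2 ≤ (1 - x) ^ 2 / x := by
  have hx0 := hx.1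
  set u : ℝ := √x with hu
  have hu0 : 0 < u := sqrt_pos.2 hx0
  have hu2 : u ^ 2 = x := sq_sqrt hx0.le
  have hu1 : u ≤ 1 := by
    rw [hu]
    exact sqrt_le_one.2 hx.2
  have h1 : 1 ≤ u⁻¹ := (one_le_inv₀ hu0).2 hu1
  have h2 := two_log_le h1
  rw [log_inv, inv_inv] at h2
  have h3 : log x = 2 * log u := by
    rw [← hu2, log_pow]
    norm_num
  have h4 : log u ≤ 0 := log_nonpos hu0.le hu1
  have h5 : (-(2 * log u)) ^ 2 ≤ (u⁻¹ - u) ^ 2 :=
    pow_le_pow_left₀ (by linarith) (by linarith) 2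
  have h6 : (u⁻¹ - u) ^ 2 = (1 - x) ^ 2 / x := by
    rw [← hu2]
    field_simp
  rw [h3, ← h6]
  calc (2 * log u) ^ 2 = (-(2 * log u)) ^ 2 := by ring
    _ ≤ _ := h5

lemma g2_le2 {T : ℝ} (hT : T ∈ Ioc (0 : ℝ) 1) : g2 T ≤ π / 16 * ((1 - T) ^ 2 / T) := by
  have h1 := g2_le_log hT
  have h2 := log_sq_le2 hT
  have hpi := pi_pos
  exact h1.trans (mul_le_mul_of_nonneg_left h2 (by positivity))

lemma e2_le2 {T : ℝ} (hT : T ∈ Ioc (0 : ℝ) 1) : e2 T ≤ π / 16 * (1 - T) ^ 2 := by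
  have h := mul_le_mul_of_nonneg_left (g2_le2 hT) hT.1.le
  have h0 := hT.1.ne'
  calc e2 T ≤ T * (π / 16 * ((1 - T) ^ 2 / T)) := h
    _ = _ := by field_simp

lemma h2_le2 {T : ℝ} (hT : T ∈ Ioo (0 : ℝ) 1) :
    h2 T ≤ π / 64 * ((1 - T ^ 2) / T ^ 2) := by
  have h1 := kap_pos' hT
  have hT0 := hT.1
  have hpi := pi_pos
  have h3 := g2_le2 ⟨hT.1, hT.2.le⟩
  unfold h2
  rw [div_le_iff₀ h1]
  refine h3.trans ?_
  have h4 : (1 - T) ^ 2 / T ≤ (1 - T ^ 2) / T ^ 2 * (1 - T ^ 2) / 4 := by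
    rw [div_le_div_iff₀ hT0 (by norm_num : (0 : ℝ) < 4), div_mul_eq_mul_div, div_mul_eq_mul_div,
      le_div_iff₀ (by positivity)]
    have h5 : (1 - T ^ 2) * (1 - T ^ 2) = (1 - T) ^ 2 * (1 + T) ^ 2 := by ring
    have h6 : 4 * T ≤ (1 + T) ^ 2 := by nlinarith [sq_nonneg (1 - T)]
    have h7 : 0 ≤ (1 - T) ^ 2 * T := by positivity
    rw [h5]
    calc (1 - T) ^ 2 * 4 * T ^ 2 = (1 - T) ^ 2 * T * (4 * T) := by ring
      _ ≤ (1 - T) ^ 2 * T * (1 + T) ^ 2 := mul_le_mul_of_nonneg_left h6 h7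
      _ = _ := by ring
  calc π / 16 * ((1 - T) ^ 2 / T) ≤ π / 16 * ((1 - T ^ 2) / T ^ 2 * (1 - T ^ 2) / 4) :=
        mul_le_mul_of_nonneg_left h4 (by positivity)
    _ = _ := by ring

lemma r2_le2 {T : ℝ} (hT : T ∈ Ioc (0 : ℝ) 1) : r2 T ≤ π / 64 * ((1 - T) ^ 2 / T) := by
  have hd : ∀ x ∈ Ioo (0 : ℝ) 1, HasDerivAt (fun x => r2 x - π / 64 * ((1 - x) ^ 2 / x))
      (-(e2 x / x) / (1 - x ^ 2) - π / 64 * (((-(2 * (1 - x))) * x - (1 - x) ^ 2 * 1) / x ^ 2))
      x := fun x hx => by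
    have h1 : HasDerivAt (fun x : ℝ => (1 - x) ^ 2) (-(2 * (1 - x))) x := by
      have := ((hasDerivAt_id x).const_sub 1).fun_pow 2
      refine this.congr_deriv ?_
      simp
    exact (hasDerivAt_r2 hx).fun_sub ((h1.div (hasDerivAt_id x) hx.1.ne').const_mul _)
  have hm : MonotoneOn (fun x => r2 x - π / 64 * ((1 - x) ^ 2 / x)) (Ioc 0 1) := by
    refine monotoneOn_of_deriv_nonneg (convex_Ioc 0 1) ?_ ?_ ?_
    · refine ContinuousOn.sub (continuousOn_r2.mono Ioc_subset_Icc_self) ?_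
      refine continuousOn_const.mul (ContinuousOn.div (by fun_prop) (by fun_prop) ?_)
      exact fun x hx => hx.1.ne'
    · rw [interior_Ioc]
      exact fun x hx => (hd x hx).differentiableAt.differentiableWithinAt
    · rw [interior_Ioc]
      intro x hx
      rw [(hd x hx).deriv]
      have k1 := h2_le2 hx
      have k2 := hx.1.ne'
      have k3 := (kap_pos' hx).ne'
      have e1 : -(e2 x / x) / (1 - x ^ 2) = -h2 x := by
        unfold e2 h2
        field_simp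
      have e3 : π / 64 * (((-(2 * (1 - x))) * x - (1 - x) ^ 2 * 1) / x ^ 2)
          = -(π / 64 * ((1 - x ^ 2) / x ^ 2)) := by
        ring
      rw [e1, e3]
      linarith
  have h := hm hT ⟨one_pos, le_rfl⟩ hT.2
  have h1 : r2 1 = 0 := by unfold r2; simp
  simp only [h1, sub_self] at h
  norm_num at h
  linarith

lemma y2_ge {T : ℝ} (hT : T ∈ Ioc (0 : ℝ) 1) : π / 4 ≤ y2 T := by
  have hd : ∀ x ∈ Ioo (0 : ℝ) 1, HasDerivAt y2
      ((Z2 x - y2 x + x ^ 2 * y2 x) / (x * (1 - x ^ 2))) x := fun x hx => hasDerivAt_y2 hx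
  have hm : AntitoneOn y2 (Ioc 0 1) := by
    refine antitoneOn_of_deriv_nonpos (convex_Ioc 0 1) ?_ ?_ ?_
    · exact fun x hx => (continuousAt_y2 hx.1).continuousWithinAt
    · rw [interior_Ioc]
      exact fun x hx => (hd x hx).differentiableAt.differentiableWithinAt
    · rw [interior_Ioc]
      intro x hx
      have h1 := (hasDerivAt_II (a := 1) le_rfl hx.1).div_const 2
      have h2 : deriv y2 x = deriv (fun x => II 1 x / 2) x := rfl
      rw [h2, h1.deriv]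
      have h3 := Kc_nonneg 1 x
      have h4 := hx.1
      have : 0 ≤ x * Kc 1 x := by positivity
      linarith
  rw [← y2_one]
  exact hm hT ⟨one_pos, le_rfl⟩ hT.2

end Vale.Agent.P224.R2.H758
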