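import Vale.Agent.P224.R2.H758.Low

/-!
A lower bound of the defect at one level by polynomial weights.
-/

namespace Vale.Agent.P224.R2.H758

open MeasureTheory Set Filter Function Real Vale.Agent.P224 Vale.Agent.P224.SM2
  Vale.Agent.P224.R2.H820
open scoped Topology RealInnerProductSpace

/-- the cubic below the third power of the inverse -/
lemma cube_le {x : ℝ} (h1 : -1 ≤ x) (h2 : x < 1) :
    (1 + x) * (1 + 2 * x + 2 * x ^ 2) ≤ ((1 - x) ^ 3)⁻¹ := by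
  have h3 : 0 < (1 - x) ^ 3 := pow_pos (by linarith) 3
  rw [← one_div, le_div_iff₀ h3]
  have h4 : 0 ≤ x ^ 2 * (2 + 2 * x - 3 * x ^ 2 - 2 * x ^ 3 + 2 * x ^ 4) := by
    refine mul_nonneg (sq_nonneg x) ?_
    nlinarith [sq_nonneg (x ^ 2 + x / 2 - 1), sq_nonneg (x ^ 2 - x / 2 - 1), sq_nonneg (x + 3 / 4),
      mul_nonneg (by linarith : 0 ≤ 1 + x) (by linarith : 0 ≤ 1 - x), sq_nonneg (x ^ 2 - 1 / 2),
      mul_nonneg (mul_nonneg (by linarith : 0 ≤ 1 + x) (by linarith : 0 ≤ 1 - x)) (sq_nonneg x)]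
  nlinarith

lemma cubic_nonneg {x : ℝ} (h1 : -1 ≤ x) : 0 ≤ (1 + x) * (1 + 2 * x + 2 * x ^ 2) := by
  refine mul_nonneg (by linarith) ?_
  nlinarith [sq_nonneg (x + 1 / 2)]

/-- the first condition -/
lemma cond1 {T v : ℝ} (hT : T ∈ Ioo (0 : ℝ) 1) (hv : v ∈ Icc (1 - T) (1 + T)) :
    0 ≤ (T * (3 / 4 * (1 - T) * y2 T) + 2 * r2 T) * v + 3 * T * (e2 T - 2 * (1 - T) * r2 T) := by
  have hT' : T ∈ Ioc (0 : ℝ) 1 := ⟨hT.1, hT.2.le⟩
  have hT0 := hT.1
  have hT1 := hT.2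
  have hy := y2_ge hT'
  have hr0 := r2_nonneg hT'
  have hr := r2_le2 hT'
  have he := e2_nonneg (T := T) ⟨hT.1.le, hT.2.le⟩
  have hpi := pi_pos
  have hk : 0 < 1 - T := by linarith
  have a1 : 0 ≤ T * (3 / 4 * (1 - T) * y2 T) + 2 * r2 T := by
    have := y2_nonneg T
    positivity
  have a2 : (T * (3 / 4 * (1 - T) * y2 T) + 2 * r2 T) * (1 - T)
      ≤ (T * (3 / 4 * (1 - T) * y2 T) + 2 * r2 T) * v := mul_le_mul_of_nonneg_left hv.1 a1
  have a3 : T * (3 / 4 * (1 - T) * (π / 4)) ≤ T * (3 / 4 * (1 - T) * y2 T) :=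
    mul_le_mul_of_nonneg_left (mul_le_mul_of_nonneg_left hy (by positivity)) hT0.le
  have a4 : 0 ≤ T * (3 / 4 * (1 - T) * (π / 4)) + (2 - 6 * T) * r2 T := by
    rcases le_total (6 * T) 2 with h | h
    · have : 0 ≤ (2 - 6 * T) * r2 T := mul_nonneg (by linarith) hr0
      positivity
    · have h1 : (6 * T - 2) * r2 T ≤ (6 * T - 2) * (π / 64 * ((1 - T) ^ 2 / T)) :=
        mul_le_mul_of_nonneg_left hr (by linarith)
      have h2 : (6 * T - 2) * (π / 64 * ((1 - T) ^ 2 / T)) ≤ T * (3 / 4 * (1 - T) * (π / 4)) := by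
        have e1 : (6 * T - 2) * (π / 64 * ((1 - T) ^ 2 / T))
            = π * (1 - T) / 64 * ((6 * T - 2) * (1 - T)) / T := by ring
        rw [e1, div_le_iff₀ hT0]
        have h3 : (6 * T - 2) * (1 - T) ≤ 12 * T ^ 2 := by nlinarith [sq_nonneg (9 * T - 2)]
        calc π * (1 - T) / 64 * ((6 * T - 2) * (1 - T)) ≤ π * (1 - T) / 64 * (12 * T ^ 2) :=
              mul_le_mul_of_nonneg_left h3 (by positivity)
          _ = _ := by ring
      linarith
  have a5 := mul_nonneg hk.le a4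
  have a6 : 0 ≤ 3 * T * e2 T := by positivity
  nlinarith

/-- the second condition -/
lemma cond2 {T v : ℝ} (hT : T ∈ Ioo (0 : ℝ) 1) (hv : v ∈ Icc (1 - T) (1 + T)) :
    0 ≤ (T * (3 / 4 * (1 - T) * y2 T) + 2 * r2 T) * v + 3 * T * (2 * (1 + T) * r2 T - e2 T) := by
  have hT' : T ∈ Ioc (0 : ℝ) 1 := ⟨hT.1, hT.2.le⟩
  have hT0 := hT.1
  have hT1 := hT.2
  have hy := y2_ge hT'
  have hr0 := r2_nonneg hT'
  have he := e2_le2 hT'
  have hpi := pi_pos
  have hk : 0 < 1 - T := by linarith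
  have hv0 : 0 ≤ v := hk.le.trans hv.1
  have a1 : 0 ≤ T * (3 / 4 * (1 - T) * y2 T) := by
    have := y2_nonneg T
    positivity
  have a2 : (T * (3 / 4 * (1 - T) * y2 T)) * (1 - T)
      ≤ (T * (3 / 4 * (1 - T) * y2 T)) * v := mul_le_mul_of_nonneg_left hv.1 a1
  have a3 : T * (3 / 4 * (1 - T) * (π / 4)) * (1 - T) ≤ T * (3 / 4 * (1 - T) * y2 T) * (1 - T) :=
    mul_le_mul_of_nonneg_right
      (mul_le_mul_of_nonneg_left (mul_le_mul_of_nonneg_left hy (by positivity)) hT0.le) hk.le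
  have a4 : 3 * T * e2 T ≤ 3 * T * (π / 16 * (1 - T) ^ 2) :=
    mul_le_mul_of_nonneg_left he (by positivity)
  have a5 : 0 ≤ 2 * r2 T * v := by positivity
  have a6 : 0 ≤ 3 * T * (2 * (1 + T) * r2 T) := by positivity
  nlinarith

/-- the third condition -/
lemma cond3 {T v : ℝ} (hT : T ∈ Ioo (0 : ℝ) 1) (hv : v ∈ Icc (1 - T) (1 + T)) :
    0 ≤ (T * (3 / 4 * (1 - T) * y2 T) + 2 * r2 T) * v ^ 2
      + 3 * v * (2 * T ^ 2 * r2 T + (1 - v) * (2 * r2 T - e2 T))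
      - 12 * r2 T * (T ^ 2 - (1 - v) ^ 2) := by
  have hT' : T ∈ Ioc (0 : ℝ) 1 := ⟨hT.1, hT.2.le⟩
  have hT0 := hT.1
  have hT1 := hT.2
  have hy := y2_ge hT'
  have hr0 := r2_nonneg hT'
  have hr := r2_le2 hT'
  have he := e2_le2 hT'
  have he0 := e2_nonneg (T := T) ⟨hT.1.le, hT.2.le⟩
  have hpi := pi_pos
  have hk : 0 < 1 - T := by linarith
  have hv0 : 0 < v := hk.trans_le hv.1
  set q : ℝ := 8 * v ^ 2 - 18 * v + 12 + 6 * T ^ 2 * v - 12 * T ^ 2 with hq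
  have e0 : (T * (3 / 4 * (1 - T) * y2 T) + 2 * r2 T) * v ^ 2
      + 3 * v * (2 * T ^ 2 * r2 T + (1 - v) * (2 * r2 T - e2 T))
      - 12 * r2 T * (T ^ 2 - (1 - v) ^ 2)
      = (T * (3 / 4 * (1 - T) * y2 T) * v ^ 2 - 3 * v * (1 - v) * e2 T) + r2 T * q := by
    rw [hq]; ring
  rw [e0]
  -- the terms with `y` and `e`
  have c1 : T * (3 / 4 * (1 - T) * (π / 4)) * v ^ 2 ≤ T * (3 / 4 * (1 - T) * y2 T) * v ^ 2 :=
    mul_le_mul_of_nonneg_right
      (mul_le_mul_of_nonneg_left (mul_le_mul_of_nonneg_left hy (by positivity)) hT0.le)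
      (by positivity)
  -- closing with the sign of `q`
  have fin : ∀ X : ℝ, 0 ≤ X → π * (1 - T) / (64 * T) * X
      ≤ T * (3 / 4 * (1 - T) * y2 T) * v ^ 2 - 3 * v * (1 - v) * e2 T → 0 ≤ X + (1 - T) * q →
      0 ≤ (T * (3 / 4 * (1 - T) * y2 T) * v ^ 2 - 3 * v * (1 - v) * e2 T) + r2 T * q := by
    intro X hX0 hX hXq
    have hc : 0 ≤ π * (1 - T) / (64 * T) := by positivity
    rcases le_total 0 q with h | h
    · have h1 := mul_nonneg hc hX0
      have h2 := mul_nonneg hr0 h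
      linarith
    · have h1 : (-q) * r2 T ≤ (-q) * (π / 64 * ((1 - T) ^ 2 / T)) :=
        mul_le_mul_of_nonneg_left hr (by linarith)
      have h2 := mul_nonneg hc hXq
      have h3 : π * (1 - T) / (64 * T) * (X + (1 - T) * q)
          = π * (1 - T) / (64 * T) * X + q * (π / 64 * ((1 - T) ^ 2 / T)) := by
        field_simp
      linarith
  rcases le_total v 1 with h | h
  · refine fin (12 * T * v * (v - 1 + T)) ?_ ?_ ?_
    · have : 0 ≤ v - 1 + T := by linarith [hv.1]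
      positivity
    · have c2 : 3 * v * (1 - v) * e2 T ≤ 3 * v * (1 - v) * (π / 16 * (1 - T) ^ 2) :=
        mul_le_mul_of_nonneg_left he (by
          have : 0 ≤ 1 - v := by linarith
          positivity)
      have c4 : T * (3 / 4 * (1 - T) * (π / 4)) * v ^ 2 - 3 * v * (1 - v) * (π / 16 * (1 - T) ^ 2)
          = π * (1 - T) / (64 * T) * (12 * T * v * (v - 1 + T)) := by
        field_simp
        ring
      linarith
    · have ha : 0 < 8 + 4 * T := by linarith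
      have e1 : 4 * (8 + 4 * T) * (12 * T * v * (v - 1 + T) + (1 - T) * q)
          = (2 * (8 + 4 * T) * v + 6 * (1 - T) * (T - 3) * (T + 1)) ^ 2
            + 12 * (1 - T) ^ 2 * (1 + T) * (5 + 7 * T + 15 * T ^ 2 - 3 * T ^ 3) := by
        rw [hq]; ring
      have h5 : 0 ≤ 5 + 7 * T + 15 * T ^ 2 - 3 * T ^ 3 := by nlinarith [sq_nonneg T]
      have h6 : 0 ≤ 12 * (1 - T) ^ 2 * (1 + T) * (5 + 7 * T + 15 * T ^ 2 - 3 * T ^ 3) := by
        positivity
      have h7 : 0 ≤ 4 * (8 + 4 * T) * (12 * T * v * (v - 1 + T) + (1 - T) * q) := by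
        rw [e1]; positivity
      exact nonneg_of_mul_nonneg_right h7 (by positivity)
  · refine fin (12 * T ^ 2 * v ^ 2) (by positivity) ?_ ?_
    · have c2 : 0 ≤ 3 * v * (v - 1) * e2 T := by
        have : 0 ≤ v - 1 := by linarith
        positivity
      have c4 : T * (3 / 4 * (1 - T) * (π / 4)) * v ^ 2
          = π * (1 - T) / (64 * T) * (12 * T ^ 2 * v ^ 2) := by
        field_simp
        ring
      linarith
    · have ha : 0 < 12 * T ^ 2 + 8 - 8 * T := by nlinarith [sq_nonneg T]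
      have e1 : 4 * (12 * T ^ 2 + 8 - 8 * T) * (12 * T ^ 2 * v ^ 2 + (1 - T) * q)
          = (2 * (12 * T ^ 2 + 8 - 8 * T) * v + (1 - T) * (6 * T ^ 2 - 18)) ^ 2
            + 12 * (1 - T) ^ 2 * (5 + 34 * T ^ 2 + 48 * T ^ 3 - 3 * T ^ 4) := by
        rw [hq]; ring
      have h5 : 0 ≤ 5 + 34 * T ^ 2 + 48 * T ^ 3 - 3 * T ^ 4 := by
        have h8 : T ^ 4 ≤ 1 := pow_le_one₀ hT0.le hT1.le
        have h9 : 0 ≤ 34 * T ^ 2 + 48 * T ^ 3 := by positivity
        linarith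
      have h7 : 0 ≤ 4 * (12 * T ^ 2 + 8 - 8 * T) * (12 * T ^ 2 * v ^ 2 + (1 - T) * q) := by
        rw [e1]; positivity
      exact nonneg_of_mul_nonneg_right h7 (by positivity)

end Vale.Agent.P224.R2.H758
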