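import Vale.Agent.P224.R2.H758.Low2

/-!
The lower bound of the integrated defect at one level in dimension 2.
-/

namespace Vale.Agent.P224.R2.H758

open MeasureTheory Set Filter Function Real Module Vale.Agent.P224 Vale.Agent.P224.SM2
  Vale.Agent.P224.R2.H820
open scoped Topology RealInnerProductSpace

/-- the cubic -/
noncomputable def pp (x : ℝ) : ℝ := (1 + x) * (1 + 2 * x + 2 * x ^ 2)

/-- the polynomial minorant of the defect at one level -/
noncomputable def low (T : ℝ) (k : R4) : ℝ :=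
  2 * e2 T * pp (T * k.1) * (k.2.2.2 - k.1) ^ 2
    + (1 + 3 * T) / 4 * (T * y2 T) * pp (T * k.1) * (k.2.2.1 - k.2.1) ^ 2

lemma FF_ge {T y y' e r s t p c v P : ℝ} (he : 0 ≤ e) (hv0 : 0 < v) (hP : 0 ≤ P)
    (hW : 0 ≤ (T * y' + 2 * r) * v ^ 2 + (2 + 1) * (2 * T ^ 2 * r + c * (T * (2 * r - e))) * v
      + (2 + 1) * (2 + 2) * T ^ 2 * r * (p * t)) :
    2 * e * (P / v) * (c - s) ^ 2 + T * (y - y') * (P / v) * (p - t) ^ 2
      ≤ FF 2 T y e r s t p c v P := by
  have h1 := FF_nonneg (m := 2) (T := T) (y := y') (e := 0) (r := r) (s := s) (t := t) (p := p)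
    (c := c) (v := v) (P := P) (by norm_num) le_rfl hv0 hP
  have e3 : FF 2 T y e r s t p c v P = 2 * e * (P / v) * (c - s) ^ 2
      + T * (y - y') * (P / v) * (p - t) ^ 2 + (p - t) ^ 2 / 2 * (2 * (P / v ^ 3) *
      ((T * y' + 2 * r) * v ^ 2 + (2 + 1) * (2 * T ^ 2 * r + c * (T * (2 * r - e))) * v
      + (2 + 1) * (2 + 2) * T ^ 2 * r * (p * t))) := by
    unfold FF
    field_simp
    ring
  rw [e3]
  have h8 := mul_nonneg (by positivity : 0 ≤ (p - t) ^ 2 / 2)
    (mul_nonneg (by positivity : 0 ≤ 2 * (P / v ^ 3)) hW)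
  linarith

variable {X : Type*} [MeasurableSpace X] {E : Type*} [NormedAddCommGroup E]
  [InnerProductSpace ℝ E] [MeasurableSpace E] [BorelSpace E] [SecondCountableTopology E]
  {μ : Measure X} [IsFiniteMeasure μ] {p n : X → E}

lemma low_le (h : Two μ 2 p n) {T : ℝ} (hT : T ∈ Ioo (0 : ℝ) 1) (q : X × X) :
    low T (SM2.pr p n q) ≤ FK 2 T (y2 T) (e2 T) (r2 T) (SM2.pr p n q) := by
  have hT' : T ∈ Ico (0 : ℝ) 1 := ⟨hT.1.le, hT.2⟩
  have hT0 := hT.1
  have hT1 := hT.2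
  have hmem := h.pr_mem q
  set s := (SM2.pr p n q).1 with hs
  set t := (SM2.pr p n q).2.1 with ht
  set P := (SM2.pr p n q).2.2.1 with hP
  set c := (SM2.pr p n q).2.2.2 with hc
  have hv : 0 < 1 - T * s := one_sub_pos' hT' hmem.1.2
  have hvI : 1 - T * s ∈ Icc (1 - T) (1 + T) := by
    constructor
    · have := mul_le_mul_of_nonneg_left hmem.1.2 hT.1.le
      linarith
    · have := mul_le_mul_of_nonneg_left hmem.1.1 hT.1.le
      linarith
  have hdet : |s - c| ≤ 1 - (s * c - P * t) := by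
    refine det_bound ?_ ?_ ?_
    · have h5 := bessel (a := p q.2) (h.np _) (h.np q.1) (h.nn q.1) (h.pn _)
      rw [real_inner_comm, real_inner_comm (n q.1)] at h5
      exact h5
    · have h5 := bessel (a := n q.2) (h.nn _) (h.np q.1) (h.nn q.1) (h.pn _)
      rw [real_inner_comm, real_inner_comm (n q.1)] at h5
      exact h5
    · exact gram4 (h.np _) (h.nn _) (h.pn _) (h.np _) (h.nn _) (h.pn _)
  have he := e2_nonneg (T := T) ⟨hT.1.le, hT.2.le⟩
  have hr := r2_nonneg (T := T) ⟨hT.1, hT.2.le⟩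
  have hW := WW_nonneg (m := 2) (T := T) (y := 3 / 4 * (1 - T) * y2 T) (e := e2 T) (r := r2 T)
    (s := s) (t := t) (p := P) (c := c) (v := 1 - T * s) (by norm_num) hT0 hr hv rfl
    (abs_le.2 hmem.1) (abs_le.2 hmem.2.2.2) hdet
    (by have := cond1 hT hvI; linarith) (by have := cond2 hT hvI; linarith)
    (by have := cond3 hT hvI; linarith)
  have hker : 0 ≤ ker T 2 s := inv_nonneg.2 (pow_nonneg hv.le _)
  have h1 := FF_ge (y := y2 T) (P := ker T 2 s) (s := s) (t := t) (p := P) (c := c) he hv hker hW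
  have h2 : ker T 2 s / (1 - T * s) = ((1 - T * s) ^ 3)⁻¹ := by
    unfold SM2.ker
    field_simp
  have h3 : pp (T * s) ≤ ((1 - T * s) ^ 3)⁻¹ := by
    refine cube_le ?_ (by linarith)
    have h4 : T * (-1) ≤ T * s := mul_le_mul_of_nonneg_left hmem.1.1 hT0.le
    linarith
  have e5 : FK 2 T (y2 T) (e2 T) (r2 T) (SM2.pr p n q)
      = FF 2 T (y2 T) (e2 T) (r2 T) s t P c (1 - T * s) (ker T 2 s) := by
    simp only [FK, Nat.cast_ofNat]
    rfl
  rw [e5]
  refine le_trans ?_ h1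
  rw [h2]
  unfold low
  have hy := y2_nonneg T
  have a1 : 2 * e2 T * pp (T * s) * (c - s) ^ 2 ≤ 2 * e2 T * ((1 - T * s) ^ 3)⁻¹ * (c - s) ^ 2 :=
    mul_le_mul_of_nonneg_right (mul_le_mul_of_nonneg_left h3 (by positivity)) (sq_nonneg _)
  have a2 : (1 + 3 * T) / 4 * (T * y2 T) * pp (T * s) * (P - t) ^ 2
      ≤ (1 + 3 * T) / 4 * (T * y2 T) * ((1 - T * s) ^ 3)⁻¹ * (P - t) ^ 2 :=
    mul_le_mul_of_nonneg_right (mul_le_mul_of_nonneg_left h3 (by positivity)) (sq_nonneg _)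
  have a3 : T * (y2 T - 3 / 4 * (1 - T) * y2 T) = (1 + 3 * T) / 4 * (T * y2 T) := by ring
  rw [a3]
  exact add_le_add a1 a2

end Vale.Agent.P224.R2.H758
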