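import Vale.Agent.P224.R2.H758.Low

/-!
The moments of the coefficient functions in dimension 2.
-/

namespace Vale.Agent.P224.R2.H758

open MeasureTheory Set Filter Function Real Vale.Agent.P224.SM2
open scoped Topology

lemma intble_of_le {f : ℝ → ℝ} {C : ℝ} (hc : ContinuousOn f (Ioo 0 1))
    (h0 : ∀ x ∈ Ioo (0 : ℝ) 1, 0 ≤ f x) (h1 : ∀ x ∈ Ioo (0 : ℝ) 1, f x ≤ C * x ^ (-(1 / 2) : ℝ)) :
    IntervalIntegrable f volume 0 1 := by
  rw [intervalIntegrable_iff_integrableOn_Ioo_of_le zero_le_one]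
  have h2 : IntervalIntegrable (fun x : ℝ => C * x ^ (-(1 / 2) : ℝ)) volume 0 1 :=
    (intervalIntegral.intervalIntegrable_rpow' (by norm_num)).const_mul _
  rw [intervalIntegrable_iff_integrableOn_Ioo_of_le zero_le_one] at h2
  refine Integrable.mono' h2 (hc.aestronglyMeasurable measurableSet_Ioo) ?_
  refine (ae_restrict_iff' measurableSet_Ioo).2 (Eventually.of_forall fun x hx => ?_)
  rw [Real.norm_eq_abs, abs_of_nonneg (h0 x hx)]
  exact h1 x hx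

lemma tend_zero {f : ℝ → ℝ} {C : ℝ} (h0 : ∀ x ∈ Ioo (0 : ℝ) 1, 0 ≤ f x)
    (h1 : ∀ x ∈ Ioo (0 : ℝ) 1, f x ≤ C * x ^ (-(1 / 2) : ℝ)) :
    Tendsto (fun x => x * f x) (𝓝[>] 0) (𝓝 0) := by
  have hlim : Tendsto (fun x : ℝ => C * x ^ (1 / 2 : ℝ)) (𝓝[>] 0) (𝓝 0) := by
    have h2 : ContinuousAt (fun x : ℝ => C * x ^ (1 / 2 : ℝ)) 0 :=
      continuousAt_const.mul (continuousAt_rpow_const _ _ (Or.inr (by norm_num)))
    have h3 : C * (0 : ℝ) ^ (1 / 2 : ℝ) = 0 := by rw [zero_rpow (by norm_num), mul_zero]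
    have h4 := h2.tendsto
    simp only [h3] at h4
    exact h4.mono_left nhdsWithin_le_nhds
  have hI : Ioo (0 : ℝ) 1 ∈ 𝓝[>] (0 : ℝ) := Ioo_mem_nhdsGT zero_lt_one
  refine tendsto_of_tendsto_of_tendsto_of_le_of_le' tendsto_const_nhds hlim ?_ ?_
  · filter_upwards [hI] with x hx
    exact mul_nonneg hx.1.le (h0 x hx)
  · filter_upwards [hI] with x hx
    have h2 := mul_le_mul_of_nonneg_left (h1 x hx) hx.1.le
    have h3 : x ^ (1 : ℝ) * x ^ (-(1 / 2) : ℝ) = x ^ (1 + -(1 / 2) : ℝ) := (rpow_add hx.1 _ _).symm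
    rw [rpow_one] at h3
    calc x * f x ≤ x * (C * x ^ (-(1 / 2) : ℝ)) := h2
      _ = C * (x * x ^ (-(1 / 2) : ℝ)) := by ring
      _ = C * x ^ (1 / 2 : ℝ) := by rw [h3]; norm_num

lemma one_le_q {x : ℝ} (hx : x ∈ Ioo (0 : ℝ) 1) : 1 ≤ x ^ (-(1 / 2) : ℝ) :=
  one_le_rpow_of_pos_of_le_one_of_nonpos hx.1 hx.2.le (by norm_num)

lemma neg_log_le {x : ℝ} (hx : x ∈ Ioo (0 : ℝ) 1) : -log x ≤ x ^ (-(1 / 2) : ℝ) := by
  have hx0 := hx.1
  have hu0 : 0 < √x := sqrt_pos.2 hx0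
  have hu1 : √x ≤ 1 := sqrt_le_one.2 hx.2.le
  have h1 : 1 ≤ (√x)⁻¹ := (one_le_inv₀ hu0).2 hu1
  have h2 := two_log_le h1
  rw [log_inv, inv_inv, log_sqrt hx0.le] at h2
  have h3 : x ^ (-(1 / 2) : ℝ) = (√x)⁻¹ := by
    rw [rpow_neg hx0.le, sqrt_eq_rpow]
  rw [h3]
  linarith

lemma Z2_le_q {x : ℝ} (hx : x ∈ Ioo (0 : ℝ) 1) : Z2 x ≤ π / 4 * x ^ (-(1 / 2) : ℝ) := by
  have h1 := Z2_le ⟨hx.1, hx.2.le⟩
  have h2 := neg_log_le hx
  have hpi := pi_pos
  have h3 : π / 4 * -log x ≤ π / 4 * x ^ (-(1 / 2) : ℝ) :=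
    mul_le_mul_of_nonneg_left h2 (by positivity)
  linarith

lemma y2_le_q {x : ℝ} (hx : x ∈ Ioo (0 : ℝ) 1) : y2 x ≤ π / 2 * x ^ (-(1 / 2) : ℝ) := by
  have h1 := Z2_le_q hx
  have h2 := y2_sub_Z2 hx.1.ne'
  have h3 : x ^ 2 ≤ 1 := by nlinarith [hx.1, hx.2]
  have h4 := EE_le h3
  have h5 := one_le_q hx
  have hpi := pi_pos
  have h6 : π / 4 * 1 ≤ π / 4 * x ^ (-(1 / 2) : ℝ) := mul_le_mul_of_nonneg_left h5 (by positivity)
  linarith

lemma g2_le_q {x : ℝ} (hx : x ∈ Ioo (0 : ℝ) 1) : g2 x ≤ π * x ^ (-(1 / 2) : ℝ) := by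
  have h1 := g2_le ⟨hx.1, hx.2.le⟩
  have hpi := pi_pos
  have h2 : (1 - x) ^ 2 ≤ 1 := by nlinarith [hx.1, hx.2]
  have h3 : 0 ≤ x ^ (-(1 / 2) : ℝ) := rpow_nonneg hx.1.le _
  refine h1.trans (mul_le_mul_of_nonneg_right ?_ h3)
  nlinarith

lemma pow_bd {f : ℝ → ℝ} {C : ℝ} (n : ℕ) (h0 : ∀ x ∈ Ioo (0 : ℝ) 1, 0 ≤ f x)
    (h1 : ∀ x ∈ Ioo (0 : ℝ) 1, f x ≤ C * x ^ (-(1 / 2) : ℝ)) :
    (∀ x ∈ Ioo (0 : ℝ) 1, 0 ≤ x ^ n * f x) ∧
    ∀ x ∈ Ioo (0 : ℝ) 1, x ^ n * f x ≤ C * x ^ (-(1 / 2) : ℝ) := by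
  refine ⟨fun x hx => mul_nonneg (pow_nonneg hx.1.le _) (h0 x hx), fun x hx => ?_⟩
  have h2 : x ^ n ≤ 1 := pow_le_one₀ hx.1.le hx.2.le
  have h3 := mul_le_mul_of_nonneg_right h2 (h0 x hx)
  rw [one_mul] at h3
  exact h3.trans (h1 x hx)

lemma y2_n0 : ∀ x ∈ Ioo (0 : ℝ) 1, 0 ≤ y2 x := fun x _ => y2_nonneg x

lemma Z2_n0 : ∀ x ∈ Ioo (0 : ℝ) 1, 0 ≤ Z2 x := fun _ hx => Z2_nonneg ⟨hx.1, hx.2.le⟩

lemma g2_n0 : ∀ x ∈ Ioo (0 : ℝ) 1, 0 ≤ g2 x := fun _ hx => g2_nonneg ⟨hx.1, hx.2.le⟩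

lemma y2_bd : ∀ x ∈ Ioo (0 : ℝ) 1, y2 x ≤ π / 2 * x ^ (-(1 / 2) : ℝ) := fun _ hx => y2_le_q hx

lemma Z2_bd : ∀ x ∈ Ioo (0 : ℝ) 1, Z2 x ≤ π / 4 * x ^ (-(1 / 2) : ℝ) := fun _ hx => Z2_le_q hx

lemma g2_bd : ∀ x ∈ Ioo (0 : ℝ) 1, g2 x ≤ π * x ^ (-(1 / 2) : ℝ) := fun _ hx => g2_le_q hx

lemma intble_y (n : ℕ) : IntervalIntegrable (fun x => x ^ n * y2 x) volume 0 1 := by
  obtain ⟨a, b⟩ := pow_bd n y2_n0 y2_bd
  refine intble_of_le (fun x hx => ?_) a b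
  exact ((continuousAt_id.pow n).mul (continuousAt_y2 hx.1)).continuousWithinAt

lemma intble_Z (n : ℕ) : IntervalIntegrable (fun x => x ^ n * Z2 x) volume 0 1 := by
  obtain ⟨a, b⟩ := pow_bd n Z2_n0 Z2_bd
  refine intble_of_le (fun x hx => ?_) a b
  exact ((continuousAt_id.pow n).mul (continuousAt_Z2 hx.1)).continuousWithinAt

lemma intble_g (n : ℕ) : IntervalIntegrable (fun x => x ^ n * g2 x) volume 0 1 := by
  obtain ⟨a, b⟩ := pow_bd n g2_n0 g2_bd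
  refine intble_of_le (fun x hx => ?_) a b
  exact ((continuousAt_id.pow n).mul (hasDerivAt_g2 hx).continuousAt).continuousWithinAt

lemma tend_y (n : ℕ) : Tendsto (fun x => x ^ (n + 1) * y2 x) (𝓝[>] 0) (𝓝 0) := by
  obtain ⟨a, b⟩ := pow_bd n y2_n0 y2_bd
  refine (tend_zero a b).congr fun x => ?_
  ring

lemma tend_Z (n : ℕ) : Tendsto (fun x => x ^ (n + 1) * Z2 x) (𝓝[>] 0) (𝓝 0) := by
  obtain ⟨a, b⟩ := pow_bd n Z2_n0 Z2_bd
  refine (tend_zero a b).congr fun x => ?_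
  ring

lemma tend_g (n : ℕ) : Tendsto (fun x => x ^ (n + 1) * g2 x) (𝓝[>] 0) (𝓝 0) := by
  obtain ⟨a, b⟩ := pow_bd n g2_n0 g2_bd
  refine (tend_zero a b).congr fun x => ?_
  ring

/-- the moments -/
noncomputable def My (n : ℕ) : ℝ := ∫ x in (0 : ℝ)..1, x ^ n * y2 x

noncomputable def MZ (n : ℕ) : ℝ := ∫ x in (0 : ℝ)..1, x ^ n * Z2 x

noncomputable def Mg (n : ℕ) : ℝ := ∫ x in (0 : ℝ)..1, x ^ n * g2 x

lemma MZ_eq (n : ℕ) : (n + 2) * MZ n = My n := by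
  have h := intervalIntegral.integral_eq_sub_of_hasDerivAt_of_tendsto (a := 0) (b := 1)
    (f := fun x => x ^ (n + 1) * Z2 x)
    (f' := fun x => (n + 2) * (x ^ n * Z2 x) - x ^ n * y2 x) zero_lt_one ?_ ?_ (tend_Z n)
    (fb := 0) ?_
  · rw [intervalIntegral.integral_sub ((intble_Z n).const_mul _) (intble_y n),
      intervalIntegral.integral_const_mul] at h
    unfold MZ My
    linarith
  · intro x hx
    have h1 := (hasDerivAt_pow (n + 1) x).fun_mul (hasDerivAt_Z2 hx)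
    refine h1.congr_deriv ?_
    have h2 := hx.1.ne'
    rw [Nat.add_sub_cancel]
    push_cast
    field_simp
    ring
  · exact ((intble_Z n).const_mul _).sub (intble_y n)
  · have h1 : ContinuousAt (fun x => x ^ (n + 1) * Z2 x) 1 :=
      (continuousAt_id.pow _).mul (continuousAt_Z2 one_pos)
    have h2 := h1.tendsto
    simp only [one_pow, Z2_one, mul_zero] at h2
    exact h2.mono_left nhdsWithin_le_nhds

lemma My_rec (n : ℕ) : (n + 2) ^ 2 * My (n + 2) = (n + 1) ^ 2 * My n := by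
  have h := intervalIntegral.integral_eq_sub_of_hasDerivAt_of_tendsto (a := 0) (b := 1)
    (f := fun x => x ^ (n + 1) * ((1 - x ^ 2) * y2 x))
    (f' := fun x => n * (x ^ n * y2 x) - (n + 2) * (x ^ (n + 2) * y2 x) + x ^ n * Z2 x)
    (fa := 0) (fb := 0) zero_lt_one ?_ ?_ ?_ ?_
  · rw [intervalIntegral.integral_add (((intble_y n).const_mul _).sub
      ((intble_y (n + 2)).const_mul _)) (intble_Z n),
      intervalIntegral.integral_sub ((intble_y n).const_mul _) ((intble_y (n + 2)).const_mul _),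
      intervalIntegral.integral_const_mul, intervalIntegral.integral_const_mul] at h
    have h1 := MZ_eq n
    have h2 : n * My n - (n + 2) * My (n + 2) + MZ n = 0 := by
      unfold My MZ
      linarith
    have h3 : (n + 2 : ℝ) * (n * My n - (n + 2) * My (n + 2)) + My n = 0 := by
      linear_combination (n + 2 : ℝ) * h2 - h1
    linear_combination -h3
  · intro x hx
    have h1 := (hasDerivAt_pow (n + 1) x).fun_mul
      (((hasDerivAt_pow 2 x).const_sub 1).fun_mul (hasDerivAt_y2 hx))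
    refine h1.congr_deriv ?_
    have h2 := hx.1.ne'
    have h3 := (kap_pos' hx).ne'
    rw [Nat.add_sub_cancel]
    push_cast
    field_simp
    ring
  · exact (((intble_y n).const_mul _).sub ((intble_y (n + 2)).const_mul _)).add (intble_Z n)
  · have h1 : Tendsto (fun x : ℝ => 1 - x ^ 2) (𝓝[>] 0) (𝓝 1) := by
      have : ContinuousAt (fun x : ℝ => 1 - x ^ 2) 0 := by fun_prop
      have h2 := this.tendsto
      norm_num at h2
      exact h2.mono_left nhdsWithin_le_nhds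
    have h2 := h1.mul (tend_y n)
    rw [mul_zero] at h2
    refine h2.congr fun x => ?_
    ring
  · have h1 : ContinuousAt (fun x => x ^ (n + 1) * ((1 - x ^ 2) * y2 x)) 1 :=
      (continuousAt_id.pow _).mul ((by fun_prop : ContinuousAt (fun x : ℝ => 1 - x ^ 2) 1).mul
        (continuousAt_y2 one_pos))
    have h2 := h1.tendsto
    simp only [one_pow, sub_self, zero_mul, mul_zero] at h2
    exact h2.mono_left nhdsWithin_le_nhds

lemma My_one : My 1 = 1 / 2 := by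
  have h := intervalIntegral.integral_eq_sub_of_hasDerivAt_of_tendsto (a := 0) (b := 1)
    (f := fun x => (1 - x ^ 2) * y2 x - Z2 x)
    (f' := fun x => -(x ^ 1 * y2 x))
    (fa := 1 / 2) (fb := 0) zero_lt_one ?_ ?_ ?_ ?_
  · rw [intervalIntegral.integral_neg] at h
    unfold My
    linarith
  · intro x hx
    have h1 := (((hasDerivAt_pow 2 x).const_sub 1).fun_mul (hasDerivAt_y2 hx)).fun_sub
      (hasDerivAt_Z2 hx)
    refine h1.congr_deriv ?_
    have h2 := hx.1.ne'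
    have h3 := (kap_pos' hx).ne'
    push_cast
    field_simp
    ring
  · exact (intble_y 1).neg
  · have h1 : Tendsto (fun x => EE x / 2 - x * (x ^ (0 + 1) * y2 x)) (𝓝[>] 0) (𝓝 (1 / 2)) := by
      have h2 : Tendsto (fun x => EE x / 2) (𝓝[>] 0) (𝓝 (1 / 2)) := by
        have h3 := (continuous_EE.div_const 2).tendsto 0
        rw [EE_zero] at h3
        exact h3.mono_left nhdsWithin_le_nhds
      have h3 : Tendsto (fun x : ℝ => x) (𝓝[>] 0) (𝓝 0) :=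
        (continuous_id.tendsto (0 : ℝ)).mono_left nhdsWithin_le_nhds
      have h4 := h2.sub (h3.mul (tend_y 0))
      rwa [mul_zero, sub_zero] at h4
    refine h1.congr' ?_
    filter_upwards [self_mem_nhdsWithin] with x hx
    have h5 := y2_sub_Z2 (ne_of_gt hx)
    rw [← h5]
    ring
  · have h1 : ContinuousAt (fun x => (1 - x ^ 2) * y2 x - Z2 x) 1 :=
      ((by fun_prop : ContinuousAt (fun x : ℝ => 1 - x ^ 2) 1).mul
        (continuousAt_y2 one_pos)).sub (continuousAt_Z2 one_pos)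
    have h2 := h1.tendsto
    simp only [one_pow, sub_self, zero_mul, Z2_one] at h2
    exact h2.mono_left nhdsWithin_le_nhds

lemma Mg_eq (n : ℕ) : 2 * (n + 1) * (n + 2) * Mg n = My n := by
  have hb : Tendsto (fun x => x ^ (n + 1) * g2 x) (𝓝[<] 1) (𝓝 0) := by
    have h1 : Tendsto (fun x : ℝ => π / 16 * ((1 - x) ^ 2 / x)) (𝓝[<] 1) (𝓝 0) := by
      have h2 : ContinuousAt (fun x : ℝ => π / 16 * ((1 - x) ^ 2 / x)) 1 := by
        refine continuousAt_const.mul (ContinuousAt.div (by fun_prop) (by fun_prop) one_ne_zero)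
      have h3 := h2.tendsto
      norm_num at h3
      exact h3.mono_left nhdsWithin_le_nhds
    have hI : Ioo (0 : ℝ) 1 ∈ 𝓝[<] (1 : ℝ) := Ioo_mem_nhdsLT zero_lt_one
    refine tendsto_of_tendsto_of_tendsto_of_le_of_le' tendsto_const_nhds h1 ?_ ?_
    · filter_upwards [hI] with x hx
      exact mul_nonneg (pow_nonneg hx.1.le _) (g2_n0 x hx)
    · filter_upwards [hI] with x hx
      have h2 : x ^ (n + 1) ≤ 1 := pow_le_one₀ hx.1.le hx.2.le
      have h3 := mul_le_mul_of_nonneg_right h2 (g2_n0 x hx)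
      rw [one_mul] at h3
      exact h3.trans (g2_le2 ⟨hx.1, hx.2.le⟩)
  have h := intervalIntegral.integral_eq_sub_of_hasDerivAt_of_tendsto (a := 0) (b := 1)
    (f := fun x => x ^ (n + 1) * g2 x)
    (f' := fun x => (n + 1) * (x ^ n * g2 x) - 1 / 2 * (x ^ n * Z2 x))
    (fa := 0) (fb := 0) zero_lt_one ?_ ?_ (tend_g n) hb
  · rw [intervalIntegral.integral_sub ((intble_g n).const_mul _) ((intble_Z n).const_mul _),
      intervalIntegral.integral_const_mul, intervalIntegral.integral_const_mul] at h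
    have h1 := MZ_eq n
    have h2 : (n + 1) * Mg n = 1 / 2 * MZ n := by
      unfold Mg MZ
      linarith
    rw [← h1]
    linear_combination 2 * (n + 2 : ℝ) * h2
  · intro x hx
    have h1 := (hasDerivAt_pow (n + 1) x).fun_mul (hasDerivAt_g2 hx)
    refine h1.congr_deriv ?_
    have h2 := hx.1.ne'
    rw [Nat.add_sub_cancel]
    push_cast
    field_simp
    ring
  · exact ((intble_g n).const_mul _).sub ((intble_Z n).const_mul _)

end Vale.Agent.P224.R2.H758
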