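import Vale.Agent.P224.R2.H758.Mom

/-!
The exact values of the moments (Wallis product) and the constant of the law in dimension 2.
-/

namespace Vale.Agent.P224.R2.H758

open MeasureTheory Set Filter Function Real Vale.Agent.P224.SM2
open scoped Topology

lemma My_pos (n : ℕ) : 0 < My n := by
  have hpi := pi_pos
  have h1 : ∫ x in (0 : ℝ)..1, x ^ n * (π / 4) ≤ My n := by
    refine intervalIntegral.integral_mono_on_of_le_Ioo zero_le_one
      (Continuous.intervalIntegrable (by fun_prop) _ _) (intble_y n) fun x hx => ?_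
    exact mul_le_mul_of_nonneg_left (y2_ge ⟨hx.1, hx.2.le⟩) (pow_nonneg hx.1.le _)
  rw [intervalIntegral.integral_mul_const, integral_pow] at h1
  have h2 : 0 < (1 ^ (n + 1) - 0 ^ (n + 1)) / ((n : ℝ) + 1) * (π / 4) := by
    rw [one_pow, zero_pow (by omega)]
    positivity
  linarith

lemma My_anti (n : ℕ) : My (n + 1) ≤ My n := by
  refine intervalIntegral.integral_mono_on_of_le_Ioo zero_le_one (intble_y _) (intble_y n)
    fun x hx => ?_
  have h1 := mul_nonneg (pow_nonneg hx.1.le n) (y2_nonneg x)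
  rw [pow_succ]
  nlinarith [hx.2]

open Real.Wallis in
lemma My_W (n : ℕ) : My (2 * n + 1) * My 0 = 1 / 2 * W n ^ 2 * My (2 * n) := by
  induction n with
  | zero =>
    have h0 : W 0 = 1 := by simp [W]
    rw [h0, mul_zero, zero_add, My_one]
    ring
  | succ n ih =>
    have h1 := My_rec (2 * n + 1)
    have h2 := My_rec (2 * n)
    have e1 : 2 * (n + 1) + 1 = 2 * n + 1 + 2 := by ring
    have e2 : 2 * (n + 1) = 2 * n + 2 := by ring
    rw [e1, e2, W_succ]
    push_cast at h1 h2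
    have h3 : My (2 * n + 1 + 2) = (2 * n + 2) ^ 2 / (2 * n + 3) ^ 2 * My (2 * n + 1) := by
      field_simp
      linear_combination h1
    have h4 : My (2 * n) = (2 * n + 2) ^ 2 / (2 * n + 1) ^ 2 * My (2 * n + 2) := by
      field_simp
      linear_combination -h2
    rw [h3, mul_assoc, ih, h4]
    field_simp

open Real.Wallis in
theorem My_zero : My 0 = π ^ 2 / 8 := by
  have h0 := My_pos 0
  have hl : ∀ n, 1 / 2 * W n ^ 2 ≤ My 0 := by
    intro n
    have h1 := My_W n
    have h2 := My_anti (2 * n)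
    have h3 := My_pos (2 * n)
    have h4 : 1 / 2 * W n ^ 2 * My (2 * n) ≤ My 0 * My (2 * n) := by
      rw [← h1, mul_comm]
      exact mul_le_mul_of_nonneg_left h2 h0.le
    exact le_of_mul_le_mul_right h4 h3
  have hu : ∀ n : ℕ, My 0 ≤ 1 / 2 * W n ^ 2 * ((2 * n + 2) / (2 * n + 1)) ^ 2 := by
    intro n
    have h1 := My_W n
    have h2 := My_anti (2 * n + 1)
    have h3 := My_pos (2 * n + 1)
    have h5 := My_rec (2 * n)
    push_cast at h5
    have h4 : My (2 * n) = ((2 * n + 2) / (2 * n + 1)) ^ 2 * My (2 * n + 2) := by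
      field_simp
      linear_combination -h5
    have h6 : My 0 * My (2 * n + 1)
        ≤ 1 / 2 * W n ^ 2 * ((2 * n + 2) / (2 * n + 1)) ^ 2 * My (2 * n + 1) := by
      rw [mul_comm, h1, h4]
      have h7 : 0 ≤ 1 / 2 * W n ^ 2 * ((2 * n + 2) / (2 * n + 1)) ^ 2 := by positivity
      have h8 := mul_le_mul_of_nonneg_left h2 h7
      calc 1 / 2 * W n ^ 2 * (((2 * n + 2) / (2 * n + 1)) ^ 2 * My (2 * n + 2))
          = 1 / 2 * W n ^ 2 * ((2 * n + 2) / (2 * n + 1)) ^ 2 * My (2 * n + 1 + 1) := by ring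
        _ ≤ _ := h8
    exact le_of_mul_le_mul_right h6 h3
  have hW := tendsto_W_nhds_pi_div_two
  have hW2 : Tendsto (fun n => 1 / 2 * W n ^ 2) atTop (𝓝 (1 / 2 * (π / 2) ^ 2)) :=
    (hW.pow 2).const_mul _
  have hr : Tendsto (fun n : ℕ => ((2 * (n : ℝ) + 2) / (2 * n + 1)) ^ 2) atTop (𝓝 (1 ^ 2)) := by
    refine Tendsto.pow ?_ 2
    have h1 : Tendsto (fun n : ℕ => 1 + 1 / (2 * (n : ℝ) + 1)) atTop (𝓝 (1 + 0)) := by
      refine tendsto_const_nhds.add ?_
      refine Tendsto.div_atTop tendsto_const_nhds ?_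
      exact tendsto_atTop_add_const_right _ _
        (tendsto_natCast_atTop_atTop.const_mul_atTop (by norm_num))
    rw [add_zero] at h1
    refine h1.congr fun n => ?_
    field_simp
    ring
  have h2 : 1 / 2 * (π / 2) ^ 2 ≤ My 0 := le_of_tendsto' hW2 hl
  have h3 : My 0 ≤ 1 / 2 * (π / 2) ^ 2 * 1 ^ 2 := ge_of_tendsto' (hW2.mul hr) hu
  linarith

lemma My_two : My 2 = π ^ 2 / 32 := by
  have h := My_rec 0
  rw [My_zero] at h
  norm_num at h
  linarith

lemma My_three : My 3 = 2 / 9 := by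
  have h := My_rec 1
  rw [My_one] at h
  norm_num at h
  linarith

lemma My_four : My 4 = 9 * π ^ 2 / 512 := by
  have h := My_rec 2
  rw [My_two] at h
  norm_num at h
  linarith

lemma My_five : My 5 = 32 / 225 := by
  have h := My_rec 3
  rw [My_three] at h
  norm_num at h
  linarith

/-- the constant of the law -/
theorem two_r2_zero_le : 2 * r2 0 ≤ 6577 / 10000 := by
  have hpi := pi_pos
  have hp2 := pi_lt_d6
  -- the pointwise bound of `h2`
  have hb : ∀ x ∈ Ioo (0 : ℝ) 1, h2 x ≤ (x ^ 0 * g2 x + x ^ 2 * g2 x + x ^ 4 * g2 x)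
      + π / 16 * (x ^ 5 * (1 - x)) := by
    intro x hx
    have hx0 := hx.1
    have h1 := kap_pos' hx
    have h3 := g2_le2 ⟨hx.1, hx.2.le⟩
    have h4 : h2 x = (x ^ 0 * g2 x + x ^ 2 * g2 x + x ^ 4 * g2 x) + x ^ 6 * (g2 x / (1 - x ^ 2)) := by
      unfold h2
      field_simp
      ring
    have h5 : x ^ 6 * (g2 x / (1 - x ^ 2)) ≤ π / 16 * (x ^ 5 * (1 - x)) := by
      have h6 : g2 x / (1 - x ^ 2) ≤ π / 16 * ((1 - x) / x) := by
        rw [div_le_iff₀ h1]
        refine h3.trans ?_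
        have h7 : (1 - x) ^ 2 / x ≤ (1 - x) / x * (1 - x ^ 2) := by
          have h8 : (1 - x) ^ 2 ≤ (1 - x) * (1 - x ^ 2) := by nlinarith [hx.1, hx.2]
          calc (1 - x) ^ 2 / x ≤ (1 - x) * (1 - x ^ 2) / x :=
                div_le_div_of_nonneg_right h8 hx0.le
            _ = _ := by ring
        calc π / 16 * ((1 - x) ^ 2 / x) ≤ π / 16 * ((1 - x) / x * (1 - x ^ 2)) :=
              mul_le_mul_of_nonneg_left h7 (by positivity)
          _ = _ := by ring
      calc x ^ 6 * (g2 x / (1 - x ^ 2)) ≤ x ^ 6 * (π / 16 * ((1 - x) / x)) :=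
            mul_le_mul_of_nonneg_left h6 (by positivity)
        _ = _ := by field_simp
    rw [h4]
    linarith
  have ig : IntervalIntegrable (fun x => (x ^ 0 * g2 x + x ^ 2 * g2 x + x ^ 4 * g2 x)
      + π / 16 * (x ^ 5 * (1 - x))) volume 0 1 :=
    (((intble_g 0).add (intble_g 2)).add (intble_g 4)).add
      (Continuous.intervalIntegrable (by fun_prop) _ _)
  have h1 : r2 0 ≤ ∫ x in (0 : ℝ)..1, ((x ^ 0 * g2 x + x ^ 2 * g2 x + x ^ 4 * g2 x)
      + π / 16 * (x ^ 5 * (1 - x))) := by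
    unfold r2
    exact intervalIntegral.integral_mono_on_of_le_Ioo zero_le_one
      (intble_h2 ⟨le_rfl, zero_le_one⟩) ig hb
  rw [intervalIntegral.integral_add (((intble_g 0).add (intble_g 2)).add (intble_g 4))
    (Continuous.intervalIntegrable (by fun_prop) _ _),
    intervalIntegral.integral_add ((intble_g 0).add (intble_g 2)) (intble_g 4),
    intervalIntegral.integral_add (intble_g 0) (intble_g 2),
    intervalIntegral.integral_const_mul] at h1
  have h2 : ∫ x in (0 : ℝ)..1, x ^ 5 * (1 - x) = 1 / 42 := by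
    have e : ∀ x : ℝ, x ^ 5 * (1 - x) = x ^ 5 - x ^ 6 := fun x => by ring
    simp only [e]
    rw [intervalIntegral.integral_sub (Continuous.intervalIntegrable (by fun_prop) _ _)
      (Continuous.intervalIntegrable (by fun_prop) _ _), integral_pow, integral_pow]
    norm_num
  rw [h2] at h1
  have g0 := Mg_eq 0
  have g2' := Mg_eq 2
  have g4 := Mg_eq 4
  rw [My_zero] at g0
  rw [My_two] at g2'
  rw [My_four] at g4
  unfold Mg at g0 g2' g4
  push_cast at g0 g2' g4
  have hp3 : π ^ 2 ≤ 9.86961 := by nlinarith [pi_pos]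
  linarith

end Vale.Agent.P224.R2.H758
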