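import Vale.Agent.P224.PO.IdX
import Vale.Agent.P224.PO.RowsO

/-!
Kernel checked certificates for a unit vector in the variables adapted to the two squares
`c - s` and `p - t`, and the polynomial expression of the two squares with polynomial weights.
-/

namespace Vale.Agent.P224.R2.H758

open Vale.Agent.P224.UE Vale.Agent.P224.POS Vale.Agent.P224.PO
open scoped RealInnerProductSpace

set_option linter.unusedSimpArgs false

noncomputable section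

/-! ### The Gram table -/

/-- the table of inner products: unit vector, the variable 3 is `(s - c) / 2` -/
def tabN : List (List PE) :=
  [[.c 1, .c 0, .c 0, .c 0, .c 0, .c 0],
   [.c 0, .sub (.c 1) (.pow (.v 0) 2), .c 0, .v 1, .v 2, .v 4],
   [.c 0, .c 0, .pow (.v 0) 2, .sub (.c 0) (.v 2), .sub (.c 0) (.v 1), .v 5],
   [.c 0, .v 1, .sub (.c 0) (.v 2), .sub (.c 1) (.add (.pow (.v 0) 2) (.v 3)), .c 0, .v 6],
   [.c 0, .v 2, .sub (.c 0) (.v 1), .c 0, .add (.pow (.v 0) 2) (.v 3), .v 7],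
   [.c 0, .v 4, .v 5, .v 6, .v 7, .c 1]]

/-- the new data -/
def vN (d : R9) (i : ℕ) : ℝ := if i = 3 then vg d 3 - vg d 0 ^ 2 else vg d i

lemma vN_ne (d : R9) {i : ℕ} (h : i ≠ 3) : vN d i = vg d i := if_neg h

lemma vN3 (d : R9) : vN d 3 = vg d 3 - vg d 0 ^ 2 := if_pos rfl

lemma vN_ge (d : R9) (i : ℕ) (h : 9 ≤ i) : vN d i = 0 := by
  rw [vN_ne d (by omega), vg_ge d i h]

/-- the pair data as polynomials of the new data -/
def sbN (i : ℕ) : PE :=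
  match i with
  | 0 => PE.v 0
  | 1 => PE.mul (PE.c 2) (PE.sub (PE.v 1) (PE.v 2))
  | 2 => PE.mul (PE.c 2) (PE.add (PE.v 1) (PE.v 2))
  | 3 => PE.sub (PE.c 1) (PE.mul (PE.c 2) (PE.add (PE.pow (PE.v 0) 2) (PE.v 3)))
  | 4 => PE.add (PE.v 6) (PE.v 7)
  | 5 => PE.sub (PE.v 6) (PE.v 7)
  | 6 => PE.add (PE.v 4) (PE.v 5)
  | 7 => PE.sub (PE.v 4) (PE.v 5)
  | 8 => PE.c 1
  | i => PE.v i

lemma ev_sbN {d : R9} (hd : d 8 = 1) (i : ℕ) : PE.ev (vN d) (sbN i) = vh d i := by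
  have e0 : vN d 0 = vg d 0 := vN_ne d (by norm_num)
  have e1 : vN d 1 = vg d 1 := vN_ne d (by norm_num)
  have e2 : vN d 2 = vg d 2 := vN_ne d (by norm_num)
  have e4 : vN d 4 = vg d 4 := vN_ne d (by norm_num)
  have e5 : vN d 5 = vg d 5 := vN_ne d (by norm_num)
  have e6 : vN d 6 = vg d 6 := vN_ne d (by norm_num)
  have e7 : vN d 7 = vg d 7 := vN_ne d (by norm_num)
  match i with
  | 0 => rw [← ev_sbH d 0]; simp [sbN, sbH, e0]
  | 1 => rw [← ev_sbH d 1]; simp [sbN, sbH, e1, e2]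
  | 2 => rw [← ev_sbH d 2]; simp [sbN, sbH, e1, e2]
  | 3 =>
    rw [← ev_sbH d 3]
    simp [sbN, sbH, e0, vN3]
  | 4 => rw [← ev_sbH d 4]; simp [sbN, sbH, e6, e7]
  | 5 => rw [← ev_sbH d 5]; simp [sbN, sbH, e6, e7]
  | 6 => rw [← ev_sbH d 6]; simp [sbN, sbH, e4, e5]
  | 7 => rw [← ev_sbH d 7]; simp [sbN, sbH, e4, e5]
  | 8 => simp [sbN, vh, hd]
  | (n + 9) =>
    rw [show sbN (n + 9) = PE.v (n + 9) from rfl, PE.ev_v, vN_ge _ _ (by omega),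
      vh_ge _ _ (by omega)]

lemma ev_sb_sbN {d : R9} (hd : d 8 = 1) (P : PE) :
    PE.ev (vN d) (PE.sb sbN P) = PE.ev (vh d) P := by
  rw [PE.ev_sb]
  congr 1
  funext i
  exact ev_sbN hd i

lemma grN_ge {k l : ℕ} (h : 6 ≤ k ∨ 6 ≤ l) : grT tabN k l = PE.c 0 := by
  unfold grT
  by_cases hk : 6 ≤ k
  · rw [lk_ge _ _ k (by simpa [tabN] using hk)]
    rfl
  · have hl : 6 ≤ l := h.resolve_left hk
    have hk' : k < 6 := not_le.1 hk
    have h6 : ∀ i < 6, (lk (fun _ => ([] : List PE)) tabN i).length = 6 := by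
      intro i hi
      interval_cases i <;> rfl
    rw [lk_ge _ _ l (by rw [h6 k hk']; exact hl)]

lemma ev_grN {d : R9} (h8 : d 8 = 1) (k l : ℕ) :
    PE.ev (vN d) (grT tabN k l) = PE.ev (vg d) (grT tabH k l) := by
  have h9 : vg d 8 = 1 := h8
  have e0 : vN d 0 = vg d 0 := vN_ne d (by norm_num)
  have e1 : vN d 1 = vg d 1 := vN_ne d (by norm_num)
  have e2 : vN d 2 = vg d 2 := vN_ne d (by norm_num)
  have e4 : vN d 4 = vg d 4 := vN_ne d (by norm_num)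
  have e5 : vN d 5 = vg d 5 := vN_ne d (by norm_num)
  have e6 : vN d 6 = vg d 6 := vN_ne d (by norm_num)
  have e7 : vN d 7 = vg d 7 := vN_ne d (by norm_num)
  by_cases h : 6 ≤ k ∨ 6 ≤ l
  · rw [grN_ge h, grT_ge h, PE.ev_c, PE.ev_c]
  · have hk : k < 6 := by omega
    have hl : l < 6 := by omega
    interval_cases k <;> interval_cases l <;>
      simp only [grT, tabN, tabH, lk_zero, lk_succ, PE.ev_c, PE.ev_v, PE.ev_sub, PE.ev_add,
        PE.ev_pow, h9, e0, e1, e2, e4, e5, e6, e7, vN3, Int.cast_one, add_sub_cancel]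

lemma sym_tabN {R : Type*} [CommRing R] (f : ℕ → R) (k l : ℕ) :
    PE.ev f (grT tabN k l) = PE.ev f (grT tabN l k) := by
  by_cases h : 6 ≤ k ∨ 6 ≤ l
  · rw [grN_ge h, grN_ge h.symm]
  · have hk : k < 6 := by omega
    have hl : l < 6 := by omega
    interval_cases k <;> interval_cases l <;> rfl

section

variable {E : Type*} [NormedAddCommGroup E] [InnerProductSpace ℝ E]

lemma dv_eight {x N y w v : E} (hv : ‖v‖ = 1) : dv x N y w v 8 = 1 := by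
  change ⟪v, v⟫ = 1
  rw [real_inner_self_eq_norm_sq, hv]
  norm_num

theorem isGramT_dvN {x N y w v : E} (hv : ‖v‖ = 1) (hx : ‖x‖ = 1) (hN : ‖N‖ = 1)
    (hy : ‖y‖ = 1) (hw : ‖w‖ = 1) (hxN : ⟪x, N⟫ = 0) (hyw : ⟪y, w⟫ = 0) (hs : ⟪x, y⟫ < 1) :
    IsGramT tabN (vN (dv x N y w v)) (vec5 ((1 / 2 : ℝ) • (x + y)) ((1 / 2 : ℝ) • (x - y))
      ((1 / 2 : ℝ) • (N + w)) ((1 / 2 : ℝ) • (N - w)) v) := by
  have h := isGramT_dv v hx hN hy hw hxN hyw hs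
  refine ⟨h.1, fun k l => ?_⟩
  rw [ev_grN (dv_eight hv), h.2]

/-- **Nonnegativity from a verified identity**, for a unit vector. -/
theorem nonneg_of_chkN {P : PE} {B1 : List BlkX} {Ms : List ℕ} (k : Int) (hk : 0 ≤ k)
    (hid : chkX Ms (PE.sb sbN P) k tabN [(.c 1, B1)] = true) (hMs : Ms.length = 4)
    (h1 : GoodX B1)
    {v x N y w : E} (hv : ‖v‖ = 1) (hx : ‖x‖ = 1) (hN : ‖N‖ = 1) (hy : ‖y‖ = 1)
    (hw : ‖w‖ = 1) (hxN : ⟪x, N⟫ = 0) (hyw : ⟪y, w⟫ = 0) (hs : ⟪x, y⟫ < 1) :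
    0 ≤ PE.ev (vh (dv x N y w v)) P := by
  have e1 : toGs [(.c 1, B1)] = [(.c 1, B1.map BlkX.toG)] := rfl
  rw [← ev_sb_sbN (dv_eight hv), ev_eq_of_chkX hid (fun f k l => sym_tabN f k l) _
    (fun i hi => vN_ge _ _ (by omega)), e1]
  refine mul_nonneg (by exact_mod_cast hk)
    (rhsG_nonneg _ (isGramT_dvN hv hx hN hy hw hxN hyw hs) ?_ ?_)
  · intro y hy
    simp only [List.mem_cons, List.not_mem_nil, or_false] at hy
    rcases hy with rfl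
    simp
  · intro y hy
    simp only [List.mem_cons, List.not_mem_nil, or_false] at hy
    rcases hy with rfl
    exact goodX_toG h1

end

/-! ### The two squares -/

/-- a cubic in `s` -/
def cub (b0 b1 b2 b3 : Int) : PE :=
  PE.add (PE.add (PE.c b0) (PE.mul (PE.c b1) sP))
    (PE.add (PE.mul (PE.c b2) (PE.pow sP 2)) (PE.mul (PE.c b3) (PE.pow sP 3)))

/-- the two squares with weights -/
def SQ (b0 b1 b2 b3 a0 a1 a2 a3 : ℝ) (d : R9) : ℝ :=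
  (b0 + b1 * d 0 + b2 * d 0 ^ 2 + b3 * d 0 ^ 3) * (d 3 - d 0) ^ 2
    + (a0 + a1 * d 0 + a2 * d 0 ^ 2 + a3 * d 0 ^ 3) * (d 2 - d 1) ^ 2

/-- the expression of the two squares -/
def SQh (Kc : Nat) (b0 b1 b2 b3 a0 a1 a2 a3 : Int) : PE :=
  PE.mul (PE.mul (PE.c 8) (PE.pow (PE.v 0) Kc))
    (PE.add (PE.mul (cub b0 b1 b2 b3) (PE.pow (PE.sub (PE.v 3) sP) 2))
      (PE.mul (cub a0 a1 a2 a3) (PE.pow (PE.sub (PE.v 2) (PE.v 1)) 2)))

theorem ev_SQh {d : R9} (hd : d 0 ≤ 1) {D : Int} (hD : D ≠ 0) (Kc : ℕ)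
    (b0 b1 b2 b3 a0 a1 a2 a3 : ℤ) :
    PE.ev (vh d) (SQh Kc b0 b1 b2 b3 a0 a1 a2 a3)
      = 8 * D * rr (d 0) ^ Kc * SQ (b0 / D) (b1 / D) (b2 / D) (b3 / D)
        (a0 / D) (a1 / D) (a2 / D) (a3 / D) d := by
  have hD' : (D : ℝ) ≠ 0 := by exact_mod_cast hD
  have hs := ev_sP hd
  unfold SQh SQ cub
  simp only [PE.ev_add, PE.ev_sub, PE.ev_mul, PE.ev_pow, PE.ev_c, PE.ev_v, hs, vh0,
      vh1, vh2, vh3, Int.cast_ofNat]
  field_simp
  ring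

/-- the left side of a near certificate -/
def lhsN (m K : Nat) (kap b0 b1 b2 b3 a0 a1 a2 a3 : Int) (L : List (Int × HTerm)) : PE :=
  PE.add (lhsH m K 0 0 (-kap) 0 0 0 0 0 0 L) (SQh K b0 b1 b2 b3 a0 a1 a2 a3)

theorem nonneg_of_lhsN {d : R9} (hd : d 0 < 1) (m : ℕ) {K : ℕ} {D : Int} (hD : 0 < D)
    (kap b0 b1 b2 b3 a0 a1 a2 a3 : Int) {L : List (Int × HTerm)}
    (hL : ∀ x ∈ L, 0 ≤ (K : ℤ) + x.2.e - 2)
    (h : 0 ≤ PE.ev (vh d) (lhsN m K kap b0 b1 b2 b3 a0 a1 a2 a3 L)) :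
    0 ≤ W9 0 0 (-(kap / D)) 0 0 0 0 0 0 d + hsum m (rlH D L) d
      + SQ (b0 / D) (b1 / D) (b2 / D) (b3 / D) (a0 / D) (a1 / D) (a2 / D) (a3 / D) d := by
  unfold lhsN at h
  rw [PE.ev_add, ev_lhsH hd m hD.ne' 0 0 (-kap) 0 0 0 0 0 0 hL, ev_SQh hd.le hD.ne',
    ← mul_add] at h
  have hD0 : (0 : ℝ) < D := by exact_mod_cast hD
  have hw : 0 < rr (d 0) ^ K := pow_pos (rr_pos hd) K
  have h2 := nonneg_of_mul_nonneg_right h (by positivity)
  simpa [neg_div] using h2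

end

end Vale.Agent.P224.R2.H758
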