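import Vale.Agent.P224.R2.H758.Stat
import Vale.Agent.P224.R2.H758.NA.Id
import Vale.Agent.P224.R2.H178.LawU

/-!
The near law in dimension 2: the defect absorbs the term of the mean normal.
-/

namespace Vale.Agent.P224.R2.H758

open MeasureTheory Set Filter Function Real Module Vale.Agent.P224 Vale.Agent.P224.FV
  Vale.Agent.P224.UE Vale.Agent.P224.PO Vale.Agent.P224.R2.H178 Vale.Agent.P224.R2.H820
open Vale.Agent.P224.SM2 hiding ker
open scoped RealInnerProductSpace Topology ContDiff Manifold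

set_option linter.unusedSectionVars false

lemma cub_nonneg {a0 a1 a2 a3 δ s : ℝ} (h0 : 3 * δ ≤ a0) (h1 : |a1| ≤ δ) (h2 : |a2| ≤ δ)
    (h3 : |a3| ≤ δ) (hs : |s| ≤ 1) : 0 ≤ a0 + a1 * s + a2 * s ^ 2 + a3 * s ^ 3 := by
  have e : ∀ (a : ℝ) (n : ℕ), |a| ≤ δ → -δ ≤ a * s ^ n := by
    intro a n ha
    have h4 : |a * s ^ n| ≤ δ := by
      rw [abs_mul, abs_pow]
      calc |a| * |s| ^ n ≤ |a| * 1 :=
            mul_le_mul_of_nonneg_left (pow_le_one₀ (abs_nonneg _) hs) (abs_nonneg _)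
        _ ≤ δ := by rw [mul_one]; exact ha
    exact (abs_le.1 h4).1
  have e1 := e a1 1 h1
  have e2 := e a2 2 h2
  have e3 := e a3 3 h3
  rw [pow_one] at e1
  linarith

lemma pi_sq_bd : 9.8696 ≤ π ^ 2 ∧ π ^ 2 ≤ 9.86961 := by
  have h1 := pi_gt_d6
  have h2 := pi_lt_d6
  have h3 := pi_pos
  constructor <;> nlinarith

/-- the two squares of the certificate -/
noncomputable def SQN (d : R9) : ℝ :=
  SQ (5726076928 / 68719476736) (5298716672 / 68719476736) (3054174208 / 68719476736) (794820608 / 68719476736) (24485494784 / 68719476736) (50255822848 / 68719476736) (51037208576 / 68719476736) (20621164544 / 68719476736) d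

lemma continuous_SQN : Continuous SQN := by
  unfold SQN SQ
  fun_prop

/-- the static defect dominates the polynomial of the certificate -/
lemma SQN_le {d : R9} (hd : |d 0| ≤ 1) : SQN d ≤ LL (d 0, d 1, d 2, d 3) := by
  obtain ⟨h1, h2⟩ := pi_sq_bd
  have hB := cub_nonneg (a0 := 1 / 12 - 5726076928 / 68719476736) (a1 := π ^ 2 / 128 - 5298716672 / 68719476736)
    (a2 := 2 / 45 - 3054174208 / 68719476736) (a3 := 3 * π ^ 2 / 2560 - 794820608 / 68719476736) (δ := 1 / 500000) (s := d 0)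
    (by norm_num) (abs_le.2 ⟨by linarith, by linarith⟩) (abs_le.2 ⟨by norm_num, by norm_num⟩)
    (abs_le.2 ⟨by linarith, by linarith⟩) hd
  have hA := cub_nonneg (a0 := (1 / 8 + 3 * π ^ 2 / 128) - 24485494784 / 68719476736)
    (a1 := (1 / 2 + 3 * π ^ 2 / 128) - 50255822848 / 68719476736) (a2 := (2 / 9 + 27 * π ^ 2 / 512) - 51037208576 / 68719476736)
    (a3 := (16 / 75 + 9 * π ^ 2 / 1024) - 20621164544 / 68719476736) (δ := 1 / 500000) (s := d 0)
    (by linarith) (abs_le.2 ⟨by linarith, by linarith⟩) (abs_le.2 ⟨by linarith, by linarith⟩)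
    (abs_le.2 ⟨by linarith, by linarith⟩) hd
  have h3 := mul_nonneg hB (sq_nonneg (d 3 - d 0))
  have h4 := mul_nonneg hA (sq_nonneg (d 2 - d 1))
  unfold SQN SQ LL LB LA
  simp only
  nlinarith

lemma low_nonneg {T : ℝ} (hT : T ∈ Icc (0 : ℝ) 1) {k : R4} (hk : k ∈ KK) : 0 ≤ low T k := by
  have hx : -1 ≤ T * k.1 := by
    have h1 := mul_le_mul_of_nonneg_left hk.1.1 hT.1
    linarith [hT.2]
  have hp : 0 ≤ pp (T * k.1) := by
    unfold pp
    refine mul_nonneg (by linarith) ?_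
    nlinarith [sq_nonneg (1 + 2 * (T * k.1))]
  have he := e2_nonneg hT
  have hy := y2_nonneg T
  have hT0 := hT.1
  unfold low
  positivity

/-- the four entries -/
def r4 (d : R9) : R4 := (d 0, d 1, d 2, d 3)

/-- the two squares as a function of the pair data -/
noncomputable def SQ4 (k : R4) : ℝ :=
  (5726076928 / 68719476736 + 5298716672 / 68719476736 * k.1
      + 3054174208 / 68719476736 * k.1 ^ 2 + 794820608 / 68719476736 * k.1 ^ 3)
      * (k.2.2.2 - k.1) ^ 2
    + (24485494784 / 68719476736 + 50255822848 / 68719476736 * k.1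
      + 51037208576 / 68719476736 * k.1 ^ 2 + 20621164544 / 68719476736 * k.1 ^ 3)
      * (k.2.2.1 - k.2.1) ^ 2

lemma continuous_SQ4 : Continuous SQ4 := by
  unfold SQ4
  fun_prop

lemma SQN_eq (d : R9) : SQN d = SQ4 (r4 d) := rfl

lemma SQ4_le {d : R9} (hd : |d 0| ≤ 1) : SQ4 (r4 d) ≤ LL (r4 d) := SQN_le hd

section

variable {X : Type*} {E : Type*} [NormedAddCommGroup E] [InnerProductSpace ℝ E]

lemma r4_dat (p n : X → E) (e : E) (q : X × X) : r4 (dat p n e q) = SM2.pr p n q := rfl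

end

section

variable {X : Type*} [MeasurableSpace X] [Nonempty X] {E : Type*} [NormedAddCommGroup E]
    [InnerProductSpace ℝ E] [FiniteDimensional ℝ E] [MeasurableSpace E] [BorelSpace E]
    {μ : Measure X} [IsFiniteMeasure μ] {F N : X → E} {B S : ℝ}

/-- the near certificate, integrated -/
lemma near_int (hE : EmbD μ 2 F N B S) {v : E} (hv : ‖v‖ = 1) {ν : ℝ} (hν : 0 < ν)
    (he : (μ.real univ * ν) • v = ∫ x, N x ∂μ) (hA0 : 0 < μ.real univ) :
    721554496 / 68719476736 * (μ.real univ ^ 2 * ν) ≤ ∫ q, SQ4 (SM2.pr F N q) ∂(μ.prod μ) := by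
  obtain ⟨ρ, _, _, h3⟩ := lawU hE le_rfl hv hν he hA0
    (R := fun d => -SQN d) continuous_SQN.neg
    (b0 := 0) (b1 := 0) (b2 := -(721554496 / 68719476736)) (b3 := 0) (b4 := 0) (b5 := 0)
    (b6 := 0) (b7 := 0) (b8 := 0) (l := rlH 68719476736 NA.rows) NA.rows_ok
    (fun x N y w a1 a2 a3 a4 a5 a6 a7 => by
      have h := NA.hpos v x N y w hv a1 a2 a3 a4 a5 a6 a7
      rw [sub_neg_eq_add]
      exact h)
  have hval : ∀ l : List (ℝ × HTerm), (∀ cT ∈ l, cT.2.sub 2 = true) → hvalU 2 l ν ρ = 0 := by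
    intro l hl
    unfold hvalU
    refine List.sum_eq_zero fun x hx => ?_
    obtain ⟨cT, hcT, rfl⟩ := List.mem_map.1 hx
    unfold VU
    rw [if_pos (hl cT hcT), mul_zero]
  rw [hval _ NA.rows_sub] at h3
  simp only [SQN_eq, r4_dat] at h3
  rw [integral_neg] at h3
  generalize ∫ q, SQ4 (SM2.pr F N q) ∂(μ.prod μ) = I at h3 ⊢
  generalize μ.real univ = A at h3 ⊢
  nlinarith

end

section

variable {V W M : Type*} [NormedAddCommGroup V] [InnerProductSpace ℝ V] [FiniteDimensional ℝ V]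
  [NormedAddCommGroup W] [InnerProductSpace ℝ W] [FiniteDimensional ℝ W]
  [TopologicalSpace M] [ChartedSpace V M]
  [MeasurableSpace V] [BorelSpace V] [MeasurableSpace M] [BorelSpace M]
  [IsManifold 𝓘(ℝ, V) ∞ M] [CompactSpace M] [T2Space M] [ConnectedSpace M]
  [MeasurableSpace W] [BorelSpace W]

/-- **The near law in dimension 2.** -/
theorem near2 (hV : finrank ℝ V = 2) (hW : finrank ℝ W = finrank ℝ V + 2)
    {F : M → W} (hF : SphImm V F) (hmin : ∀ x n, IsUnitNormal V F x n → meanCurv V F x n = 0)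
    {N : M → W} (hNs : ContMDiff 𝓘(ℝ, V) 𝓘(ℝ, W) ∞ N) (hN : ∀ x, IsUnitNormal V F x (N x))
    (hinj : Injective F) {e : W} (he : (volM V F).real univ • e = ∫ x, N x ∂(volM V F))
    (hA0 : 0 < (volM V F).real univ) (hsm : ‖e‖ < 7 / 500) :
    ∃ B : ℝ → ℝ, IntervalIntegrable B volume 0 1 ∧
      (∀ T ∈ Ioo (0 : ℝ) 1, B T ≤ DM2 V F N T) ∧
      2 * r2 0 * ‖∫ x, N x ∂(volM V F)‖ ^ 2 ≤ ∫ T in (0 : ℝ)..1, B T := by
  have hfin : IsFiniteMeasure (volM V F) := isFiniteMeasure_volM hF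
  have h2 := two_of_min hW hF hmin hNs hN
  rw [hV] at h2
  refine ⟨BT (volM V F) F N, intble_BT, fun T hT => ?_, ?_⟩
  · rw [BT_eq h2]
    unfold DM2 DF
    refine integral_mono_ae ?_ (integrable_FK' h2 certP2 hT)
      (Eventually.of_forall fun q => low_le h2 hT q)
    exact intP h2 (low T) (by unfold low pp; fun_prop)
  by_cases h0 : e = 0
  · have hz : ‖∫ x, N x ∂(volM V F)‖ = 0 := by
      rw [← he, h0, smul_zero, norm_zero]
    rw [hz]
    have h3 : 0 ≤ ∫ T in (0 : ℝ)..1, BT (volM V F) F N T := by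
      refine intervalIntegral.integral_nonneg zero_le_one fun T hT => ?_
      rw [BT_eq h2]
      exact integral_nonneg fun q => low_nonneg hT (h2.pr_mem q)
    rw [zero_pow two_ne_zero, mul_zero]
    exact h3
  have hν : 0 < ‖e‖ := norm_pos_iff.2 h0
  obtain ⟨C, hE⟩ := embD_of_inj (by omega) hW hF hmin hNs hN hinj
  rw [hV] at hE
  have hne : Nonempty M := inferInstance
  have hv : ‖(‖e‖⁻¹ • e : W)‖ = 1 := by
    rw [norm_smul, norm_inv, norm_norm, inv_mul_cancel₀ hν.ne']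
  have hev : ((volM V F).real univ * ‖e‖) • (‖e‖⁻¹ • e : W) = ∫ x, N x ∂(volM V F) := by
    rw [smul_smul, mul_assoc, mul_inv_cancel₀ hν.ne', mul_one]
    exact he
  have h7 := near_int hE hv hν hev hA0
  have hpt : ∀ q, SQ4 (SM2.pr F N q) ≤ LL (SM2.pr F N q) := by
    intro q
    have h4 := SQ4_le (d := dat F N e q) (abs_le.2 (h2.pr_mem q).1)
    rwa [r4_dat] at h4
  have h6 := integral_mono (intP h2 SQ4 continuous_SQ4)
    (intP h2 LL (by unfold LL LB LA; fun_prop)) hpt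
  rw [int_BT h2]
  have hn : ‖∫ x, N x ∂(volM V F)‖ = (volM V F).real univ * ‖e‖ := by
    rw [← he, norm_smul, Real.norm_eq_abs, abs_of_pos hA0]
  rw [hn]
  refine le_trans ?_ (h7.trans h6)
  have h9 := mul_le_mul_of_nonneg_right two_r2_zero_le
    (sq_nonneg ((volM V F).real univ * ‖e‖))
  refine h9.trans ?_
  generalize (volM V F).real univ = A at hA0
  generalize ‖e‖ = ν at hν hsm
  have h11 : 0 ≤ A ^ 2 * ν := by positivity
  have h12 := mul_le_mul_of_nonneg_left hsm.le h11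
  nlinarith

end

end Vale.Agent.P224.R2.H758
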