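import Vale.Agent.P224.R2.H758.Low3
import Vale.Agent.P224.R2.H758.Mom2
import Vale.Agent.P224.R2.H758.Geo2

/-!
The static sharp inequality in dimension 2.
-/

namespace Vale.Agent.P224.R2.H758

open MeasureTheory Set Filter Function Real Module Vale.Agent.P224 Vale.Agent.P224.FV
  Vale.Agent.P224.SM2 Vale.Agent.P224.R2.H820
open scoped RealInnerProductSpace Topology ContDiff Manifold

set_option linter.unusedSectionVars false

/-- the static kernel of `c - s` -/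
noncomputable def LB (s : ℝ) : ℝ :=
  1 / 12 + π ^ 2 / 128 * s + 2 / 45 * s ^ 2 + 3 * π ^ 2 / 2560 * s ^ 3

/-- the static kernel of `p - t` -/
noncomputable def LA (s : ℝ) : ℝ :=
  (1 / 8 + 3 * π ^ 2 / 128) + (1 / 2 + 3 * π ^ 2 / 128) * s + (2 / 9 + 27 * π ^ 2 / 512) * s ^ 2
    + (16 / 75 + 9 * π ^ 2 / 1024) * s ^ 3

/-- the static defect -/
noncomputable def LL (k : R4) : ℝ :=
  LB k.1 * (k.2.2.2 - k.1) ^ 2 + LA k.1 * (k.2.2.1 - k.2.1) ^ 2

variable {X : Type*} [MeasurableSpace X] {E : Type*} [NormedAddCommGroup E]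
  [InnerProductSpace ℝ E] [MeasurableSpace E] [BorelSpace E] [SecondCountableTopology E]
  {μ : Measure X} [IsFiniteMeasure μ] {p n : X → E}

lemma intP (h : Two μ 2 p n) (f : R4 → ℝ) (hf : Continuous f) :
    Integrable (fun q => f (SM2.pr p n q)) (μ.prod μ) :=
  integrable_param (μ.prod μ) h.measurable_pr isCompact_KK h.pr_mem hf.measurable hf.continuousOn

/-- the moments of the two squares -/
noncomputable def PM (μ : Measure X) (p n : X → E) (j : ℕ) : ℝ :=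
  ∫ q, (SM2.pr p n q).1 ^ j * ((SM2.pr p n q).2.2.2 - (SM2.pr p n q).1) ^ 2 ∂(μ.prod μ)

noncomputable def QM (μ : Measure X) (p n : X → E) (j : ℕ) : ℝ :=
  ∫ q, (SM2.pr p n q).1 ^ j * ((SM2.pr p n q).2.2.1 - (SM2.pr p n q).2.1) ^ 2 ∂(μ.prod μ)

lemma int4 {Y : Type*} [MeasurableSpace Y] {ν : Measure Y} {f0 f1 f2 f3 : Y → ℝ}
    (i0 : Integrable f0 ν) (i1 : Integrable f1 ν) (i2 : Integrable f2 ν) (i3 : Integrable f3 ν)
    (a0 a1 a2 a3 : ℝ) :
    Integrable (fun x => a0 * f0 x + a1 * f1 x + a2 * f2 x + a3 * f3 x) ν ∧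
    ∫ x, (a0 * f0 x + a1 * f1 x + a2 * f2 x + a3 * f3 x) ∂ν
      = a0 * ∫ x, f0 x ∂ν + a1 * ∫ x, f1 x ∂ν + a2 * ∫ x, f2 x ∂ν + a3 * ∫ x, f3 x ∂ν := by
  have j0 := i0.const_mul a0
  have j1 := i1.const_mul a1
  have j2 := i2.const_mul a2
  have j3 := i3.const_mul a3
  have k1 : Integrable (fun x => a0 * f0 x + a1 * f1 x) ν := j0.add j1
  have k2 : Integrable (fun x => a0 * f0 x + a1 * f1 x + a2 * f2 x) ν := k1.add j2
  refine ⟨k2.add j3, ?_⟩
  rw [integral_add k2 j3, integral_add k1 j2, integral_add j0 j1,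
    integral_const_mul, integral_const_mul, integral_const_mul, integral_const_mul]

/-- linear combinations of the moments -/
lemma int_comb (h : Two μ 2 p n) (a0 a1 a2 a3 b0 b1 b2 b3 : ℝ) :
    ∫ q, ((a0 + a1 * (SM2.pr p n q).1 + a2 * (SM2.pr p n q).1 ^ 2 + a3 * (SM2.pr p n q).1 ^ 3)
        * ((SM2.pr p n q).2.2.2 - (SM2.pr p n q).1) ^ 2
      + (b0 + b1 * (SM2.pr p n q).1 + b2 * (SM2.pr p n q).1 ^ 2 + b3 * (SM2.pr p n q).1 ^ 3)
        * ((SM2.pr p n q).2.2.1 - (SM2.pr p n q).2.1) ^ 2) ∂(μ.prod μ)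
      = (a0 * PM μ p n 0 + a1 * PM μ p n 1 + a2 * PM μ p n 2 + a3 * PM μ p n 3)
        + (b0 * QM μ p n 0 + b1 * QM μ p n 1 + b2 * QM μ p n 2 + b3 * QM μ p n 3) := by
  have iP : ∀ j, Integrable (fun q => (SM2.pr p n q).1 ^ j
      * ((SM2.pr p n q).2.2.2 - (SM2.pr p n q).1) ^ 2) (μ.prod μ) := fun j =>
    intP h (fun k => k.1 ^ j * (k.2.2.2 - k.1) ^ 2) (by fun_prop)
  have iQ : ∀ j, Integrable (fun q => (SM2.pr p n q).1 ^ j
      * ((SM2.pr p n q).2.2.1 - (SM2.pr p n q).2.1) ^ 2) (μ.prod μ) := fun j =>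
    intP h (fun k => k.1 ^ j * (k.2.2.1 - k.2.1) ^ 2) (by fun_prop)
  obtain ⟨u1, v1⟩ := int4 (iP 0) (iP 1) (iP 2) (iP 3) a0 a1 a2 a3
  obtain ⟨u2, v2⟩ := int4 (iQ 0) (iQ 1) (iQ 2) (iQ 3) b0 b1 b2 b3
  unfold PM QM
  rw [← v1, ← v2, ← integral_add u1 u2]
  refine integral_congr_ae (Eventually.of_forall fun q => ?_)
  simp only
  ring

lemma int_low (h : Two μ 2 p n) (T : ℝ) :
    ∫ q, low T (SM2.pr p n q) ∂(μ.prod μ)
      = (2 * T * g2 T) * (PM μ p n 0 + 3 * T * PM μ p n 1 + 4 * T ^ 2 * PM μ p n 2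
          + 2 * T ^ 3 * PM μ p n 3)
        + ((1 + 3 * T) / 4 * (T * y2 T)) * (QM μ p n 0 + 3 * T * QM μ p n 1
          + 4 * T ^ 2 * QM μ p n 2 + 2 * T ^ 3 * QM μ p n 3) := by
  have h1 := int_comb h (2 * T * g2 T) (2 * T * g2 T * (3 * T)) (2 * T * g2 T * (4 * T ^ 2))
    (2 * T * g2 T * (2 * T ^ 3)) ((1 + 3 * T) / 4 * (T * y2 T))
    ((1 + 3 * T) / 4 * (T * y2 T) * (3 * T)) ((1 + 3 * T) / 4 * (T * y2 T) * (4 * T ^ 2))
    ((1 + 3 * T) / 4 * (T * y2 T) * (2 * T ^ 3))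
  refine (integral_congr_ae (Eventually.of_forall fun q => ?_)).trans (h1.trans ?_)
  · simp only [low, pp, e2]
    ring
  · ring

/-- the lower bound of the integrated defect -/
noncomputable def BT (μ : Measure X) (p n : X → E) (T : ℝ) : ℝ :=
  (2 * PM μ p n 0) * (T ^ 1 * g2 T) + (6 * PM μ p n 1) * (T ^ 2 * g2 T)
    + (8 * PM μ p n 2) * (T ^ 3 * g2 T) + (4 * PM μ p n 3) * (T ^ 4 * g2 T)
    + (1 / 4 * QM μ p n 0) * (T ^ 1 * y2 T)
    + (3 / 4 * (QM μ p n 0 + QM μ p n 1)) * (T ^ 2 * y2 T)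
    + (1 / 4 * (9 * QM μ p n 1 + 4 * QM μ p n 2)) * (T ^ 3 * y2 T)
    + (1 / 4 * (12 * QM μ p n 2 + 2 * QM μ p n 3)) * (T ^ 4 * y2 T)
    + (3 / 2 * QM μ p n 3) * (T ^ 5 * y2 T)

lemma BT_eq (h : Two μ 2 p n) (T : ℝ) :
    BT μ p n T = ∫ q, low T (SM2.pr p n q) ∂(μ.prod μ) := by
  rw [int_low h]
  unfold BT
  ring

/-- an integrable function with its integral -/
def Val (f : ℝ → ℝ) (v : ℝ) : Prop :=
  IntervalIntegrable f volume 0 1 ∧ ∫ x in (0 : ℝ)..1, f x = v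

lemma Val.add {f g : ℝ → ℝ} {a b : ℝ} (hf : Val f a) (hg : Val g b) :
    Val (fun x => f x + g x) (a + b) := by
  refine ⟨hf.1.add hg.1, ?_⟩
  rw [intervalIntegral.integral_add hf.1 hg.1, hf.2, hg.2]

lemma Val.cmul {f : ℝ → ℝ} {a : ℝ} (hf : Val f a) (c : ℝ) :
    Val (fun x => c * f x) (c * a) := by
  refine ⟨hf.1.const_mul c, ?_⟩
  rw [intervalIntegral.integral_const_mul, hf.2]

lemma val_BT : Val (BT μ p n) ((2 * PM μ p n 0) * Mg 1 + (6 * PM μ p n 1) * Mg 2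
    + (8 * PM μ p n 2) * Mg 3 + (4 * PM μ p n 3) * Mg 4 + (1 / 4 * QM μ p n 0) * My 1
    + (3 / 4 * (QM μ p n 0 + QM μ p n 1)) * My 2
    + (1 / 4 * (9 * QM μ p n 1 + 4 * QM μ p n 2)) * My 3
    + (1 / 4 * (12 * QM μ p n 2 + 2 * QM μ p n 3)) * My 4
    + (3 / 2 * QM μ p n 3) * My 5) := by
  have G : ∀ n, Val (fun x => x ^ n * g2 x) (Mg n) := fun n => ⟨intble_g n, rfl⟩
  have Y : ∀ n, Val (fun x => x ^ n * y2 x) (My n) := fun n => ⟨intble_y n, rfl⟩
  exact (((((((((G 1).cmul _).add ((G 2).cmul _)).add ((G 3).cmul _)).add ((G 4).cmul _)).add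
    ((Y 1).cmul _)).add ((Y 2).cmul _)).add ((Y 3).cmul _)).add ((Y 4).cmul _)).add
    ((Y 5).cmul _)

lemma intble_BT : IntervalIntegrable (BT μ p n) volume 0 1 := val_BT.1

lemma int_BT (h : Two μ 2 p n) :
    ∫ T in (0 : ℝ)..1, BT μ p n T = ∫ q, LL (SM2.pr p n q) ∂(μ.prod μ) := by
  have e1 := (val_BT (μ := μ) (p := p) (n := n)).2
  have g1 : Mg 1 = 1 / 24 := by
    have := Mg_eq 1
    rw [My_one] at this
    push_cast at this
    linarith
  have g2' : Mg 2 = π ^ 2 / 768 := by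
    have := Mg_eq 2
    rw [My_two] at this
    push_cast at this
    linarith
  have g3 : Mg 3 = 1 / 180 := by
    have := Mg_eq 3
    rw [My_three] at this
    push_cast at this
    linarith
  have g4 : Mg 4 = 3 * π ^ 2 / 10240 := by
    have := Mg_eq 4
    rw [My_four] at this
    push_cast at this
    linarith
  rw [e1, g1, g2', g3, g4, My_one, My_two, My_three, My_four, My_five]
  have h1 := int_comb h (1 / 12) (π ^ 2 / 128) (2 / 45) (3 * π ^ 2 / 2560)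
    (1 / 8 + 3 * π ^ 2 / 128) (1 / 2 + 3 * π ^ 2 / 128) (2 / 9 + 27 * π ^ 2 / 512)
    (16 / 75 + 9 * π ^ 2 / 1024)
  refine Eq.trans ?_ (h1.symm.trans (integral_congr_ae (Eventually.of_forall fun q => ?_)))
  · ring
  · simp only [LL, LB, LA]

section

variable {V W M : Type*} [NormedAddCommGroup V] [InnerProductSpace ℝ V] [FiniteDimensional ℝ V]
  [NormedAddCommGroup W] [InnerProductSpace ℝ W] [FiniteDimensional ℝ W]
  [TopologicalSpace M] [ChartedSpace V M]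
  [MeasurableSpace V] [BorelSpace V] [MeasurableSpace M] [BorelSpace M]

/-- **The static sharp inequality in dimension 2.** -/
theorem static2 [MeasurableSpace W] [BorelSpace W] [IsManifold 𝓘(ℝ, V) ∞ M]
    [CompactSpace M] [T2Space M] (hm : finrank ℝ V = 2) (hW : finrank ℝ W = 4)
    {F : M → W} (hF : SphImm V F) (hmin : ∀ x n, IsUnitNormal V F x n → meanCurv V F x n = 0)
    {N : M → W} (hNs : ContMDiff 𝓘(ℝ, V) 𝓘(ℝ, W) ∞ N) (hN : ∀ x, IsUnitNormal V F x (N x))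
    (hinj : Injective F) :
    2 * π ^ 2 * (volM V F).real univ
      + ∫ q, LL (SM2.pr F N q) ∂((volM V F).prod (volM V F))
      ≤ (volM V F).real univ ^ 2 + 6577 / 10000 * ‖∫ x, N x ∂(volM V F)‖ ^ 2 := by
  have hfin : IsFiniteMeasure (volM V F) := isFiniteMeasure_volM hF
  have hW' : finrank ℝ W = finrank ℝ V + 2 := by omega
  have h2 := two_of_min hW' hF hmin hNs hN
  rw [hm] at h2
  have h1 := sharp_defect2 hm hW hF hmin hNs hN hinj
    (B := BT (volM V F) F N) intble_BT (fun T hT => by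
      rw [BT_eq h2]
      unfold DM2 DF
      refine integral_mono_ae ?_ (integrable_FK' h2 certP2 hT)
        (Eventually.of_forall fun q => low_le h2 hT q)
      exact intP h2 (low T) (by unfold low pp; fun_prop))
  rw [int_BT h2] at h1
  have h3 := mul_le_mul_of_nonneg_right two_r2_zero_le (sq_nonneg ‖∫ x, N x ∂(volM V F)‖)
  linarith

end

end Vale.Agent.P224.R2.H758
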