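import Vale.Agent.P224.R2.H758.Fin2

/-!
The two point functional in dimension 2: behaviour of the coefficients at T = 1 and the limit of
the functional at T = 0.
-/

namespace Vale.Agent.P224.R2.H758

open MeasureTheory Set Filter Function Real Vale.Agent.P224.SM2 Vale.Agent.P224.R2.H820
open scoped Topology RealInnerProductSpace

set_option linter.unusedSectionVars false

/-- the equations of the coefficient functions -/
theorem certP2 : CertP 2 y2 Z2 e2 r2 where
  cy := fun _ hx => (continuousAt_y2 hx.1).continuousWithinAt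
  cZ := fun _ hx => (continuousAt_Z2 hx.1).continuousWithinAt
  ce := fun _ hx => (hasDerivAt_e2 hx).continuousAt.continuousWithinAt
  cr := fun _ hx => (hasDerivAt_r2 hx).continuousAt.continuousWithinAt
  hy := fun T hT => (hasDerivAt_y2 hT).congr_deriv (by push_cast; ring)
  hZ := fun T hT => (hasDerivAt_Z2 hT).congr_deriv (by
    have := hT.1
    push_cast
    field_simp)
  he := fun T hT => (hasDerivAt_e2 hT).congr_deriv (by push_cast; ring)
  hr := fun T hT => (hasDerivAt_r2 hT).congr_deriv (by push_cast; ring)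
  e0 := fun _ hT => e2_nonneg ⟨hT.1.le, hT.2.le⟩
  r0 := fun _ hT => r2_nonneg ⟨hT.1, hT.2.le⟩
  y0 := fun T _ => y2_nonneg T

lemma y2_one : y2 1 = π / 4 := by
  have h : II 1 1 = π / 2 := by
    unfold II
    have e : ∀ θ, wt 1 θ * Q 1 θ = 1 := by
      intro θ
      rw [wt_one, one_mul]
      unfold Q
      rw [one_pow, one_mul, sin_sq_add_cos_sq, sqrt_one, inv_one]
    simp only [e]
    simp
  unfold y2
  rw [h]
  ring

lemma sqrt_rpow_le {T : ℝ} (hT : T ∈ Ico (1 / 4 : ℝ) 1) : T ^ (-(1 / 2) : ℝ) ≤ 2 := by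
  have h1 : (1 / 4 : ℝ) ^ (-(1 / 2) : ℝ) = 2 := by
    rw [rpow_neg (by norm_num), ← sqrt_eq_rpow]
    rw [show (1 / 4 : ℝ) = (1 / 2) ^ 2 by norm_num, sqrt_sq (by norm_num)]
    norm_num
  exact (rpow_le_rpow_of_nonpos (by norm_num) hT.1 (by norm_num)).trans_eq h1

lemma tendsto_sin_left : Tendsto (fun φ => sin φ) (𝓝[<] (π / 2)) (𝓝 1) := by
  have := (continuous_sin.tendsto (π / 2)).mono_left (nhdsWithin_le_nhds (s := Iio (π / 2)))
  rwa [sin_pi_div_two] at this

lemma eventually_sin : ∀ᶠ φ in 𝓝[<] (π / 2), sin φ ∈ Ico (1 / 4 : ℝ) 1 ∧ 0 < cos φ := by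
  have hpi := pi_pos
  have h1 : ∀ᶠ φ in 𝓝[<] (π / 2), (1 / 4 : ℝ) < sin φ :=
    (tendsto_order.1 tendsto_sin_left).1 _ (by norm_num)
  have h0 : ∀ᶠ φ in 𝓝[<] (π / 2), φ ∈ Ioo 0 (π / 2) := Ioo_mem_nhdsLT (by positivity)
  filter_upwards [h1, h0] with φ h2 h3
  have hφI : φ ∈ Ioo (-(π / 2)) (π / 2) := ⟨by linarith [h3.1], h3.2⟩
  exact ⟨⟨h2.le, (abs_lt.1 (FV.abs_sin_lt_one hφI)).2⟩, cos_pos_of_mem_Ioo hφI⟩

/-- the behaviour of the coefficient functions at T = 1 -/
theorem certLim2 : CertLim 2 y2 Z2 e2 r2 (π / 4) := by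
  have hpi := pi_pos
  have h1s : Tendsto (fun φ => 4 * π * (1 - sin φ)) (𝓝[<] (π / 2)) (𝓝 0) := by
    have := (tendsto_sin_left.const_sub 1).const_mul (4 * π)
    simpa using this
  refine ⟨?_, ?_, ?_, ?_⟩
  · have h := (continuousAt_y2 one_pos).tendsto.comp tendsto_sin_left
    rw [y2_one] at h
    refine h.congr fun φ => ?_
    simp
  · refine squeeze_zero' ?_ ?_ h1s
    · filter_upwards [eventually_sin] with φ h
      exact div_nonneg (e2_nonneg ⟨by linarith [h.1.1], h.1.2.le⟩) (by positivity)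
    · filter_upwards [eventually_sin] with φ h
      set T := sin φ with hT
      have hc : cos φ ^ 2 = 1 - T ^ 2 := by
        have := sin_sq_add_cos_sq φ
        rw [hT]
        linarith
      have hT0 : 0 < T := by linarith [h.1.1]
      have hk : 0 < 1 - T ^ 2 := kap_pos' ⟨hT0, h.1.2⟩
      rw [hc, div_le_iff₀ hk]
      have h2 := e2_le (T := T) ⟨hT0, h.1.2.le⟩
      have h3 : T ^ (1 / 2 : ℝ) ≤ 1 := rpow_le_one hT0.le h.1.2.le (by norm_num)
      have h4 : 0 ≤ π * (1 - T) ^ 2 := by positivity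
      have h5 : π * (1 - T) ^ 2 * T ^ (1 / 2 : ℝ) ≤ π * (1 - T) ^ 2 * 1 :=
        mul_le_mul_of_nonneg_left h3 h4
      have h6 : 0 ≤ 1 - T := by linarith [h.1.2]
      have h7 : (1 - T) ≤ 1 - T ^ 2 := by nlinarith
      have h8 : π * (1 - T) * (1 - T) ≤ π * (1 - T) * (1 - T ^ 2) :=
        mul_le_mul_of_nonneg_left h7 (by positivity)
      have h9 : 0 ≤ π * (1 - T) * (1 - T ^ 2) := by positivity
      calc e2 T ≤ π * (1 - T) ^ 2 * 1 := h2.trans h5
        _ = π * (1 - T) * (1 - T) := by ring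
        _ ≤ π * (1 - T) * (1 - T ^ 2) := h8
        _ ≤ 4 * (π * (1 - T) * (1 - T ^ 2)) := by linarith
        _ = _ := by ring
  · refine ⟨π, ?_⟩
    filter_upwards [eventually_sin] with φ h
    set T := sin φ with hT
    have hc : cos φ ^ 2 = 1 - T ^ 2 := by
      have := sin_sq_add_cos_sq φ
      rw [hT]
      linarith
    have hT0 : 0 < T := by linarith [h.1.1]
    have hk : 0 < 1 - T ^ 2 := kap_pos' ⟨hT0, h.1.2⟩
    have h1 := Z2_nonneg (T := T) ⟨hT0, h.1.2.le⟩
    rw [hc, abs_of_nonneg (by positivity), div_le_iff₀ hk]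
    have h2 := Z2_le (T := T) ⟨hT0, h.1.2.le⟩
    have h3 : -log T ≤ T⁻¹ - 1 := by
      have := log_le_sub_one_of_pos (inv_pos.2 hT0)
      rwa [log_inv] at this
    have h4 : T⁻¹ - 1 ≤ 4 * (1 - T) := by
      have h5 : T⁻¹ ≤ 4 := by
        rw [inv_le_comm₀ hT0 (by norm_num)]
        linarith [h.1.1]
      have h6 : T⁻¹ - 1 = (1 - T) * T⁻¹ := by field_simp
      rw [h6]
      have h7 : 0 ≤ 1 - T := by linarith [h.1.2]
      nlinarith
    have h6 : 0 ≤ 1 - T := by linarith [h.1.2]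
    have h7 : (1 - T) ≤ 1 - T ^ 2 := by nlinarith
    calc Z2 T ≤ π / 4 * (-log T) := by linarith
      _ ≤ π / 4 * (4 * (1 - T)) := mul_le_mul_of_nonneg_left (h3.trans h4) (by positivity)
      _ = π * (1 - T) := by ring
      _ ≤ _ := mul_le_mul_of_nonneg_left h7 hpi.le
  · refine squeeze_zero' ?_ ?_ h1s
    · filter_upwards [eventually_sin] with φ h
      refine div_nonneg (r2_nonneg ⟨by linarith [h.1.1], h.1.2.le⟩) ?_
      have : 0 ≤ 1 - sin φ := by linarith [h.1.2]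
      have h2 := h.2
      positivity
    · filter_upwards [eventually_sin] with φ h
      set T := sin φ with hT
      have hT0 : 0 < T := by linarith [h.1.1]
      have h6 : 0 < 1 - T := by linarith [h.1.2]
      rw [show 2 - 2 = 0 from rfl, pow_zero, one_mul, div_le_iff₀ h6]
      have h2 := r2_le (T := T) ⟨hT0, h.1.2.le⟩
      have h3 := sqrt_rpow_le h.1
      have h4 : 0 ≤ π * (1 - T) ^ 2 := by positivity
      have h5 := mul_le_mul_of_nonneg_left h3 h4
      nlinarith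

/-- the integrand with regular coefficients -/
noncomputable def gX (w ty e r T : ℝ) (k : R4) : ℝ :=
  2 * w * ker T 1 k.1 + ty * k.1 * ker T 2 k.1 - T * ty * (ker T 2 k.1 + ker T 1 k.1)
    + 2 * e * (k.2.2.2 - k.1) * ker T 2 k.1
    + k.2.2.2 * ((1 - T ^ 2) * (ty + 2 * r)) * ker T 2 k.1
    - 6 * T ^ 2 * (1 - T ^ 2) * r * k.2.2.2 * ((k.2.2.1 ^ 2 + k.2.1 ^ 2) / 2) * ker T 4 k.1
    + 2 * T * (1 - T ^ 2) * r * ((k.2.2.1 ^ 2 + k.2.1 ^ 2) / 2)
      * (ker T 3 k.1 - 3 * ker T 4 k.1)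

lemma gK_eq_gX {T : ℝ} (hT : T ∈ Ioo (0 : ℝ) 1) {k : R4} (hk : k.1 ≤ 1) :
    gK 2 y2 Z2 e2 r2 T k = gX (EE T / 2) (T * y2 T) (e2 T) (r2 T) T k := by
  have hv := (one_sub_pos' ⟨hT.1.le, hT.2⟩ hk).ne'
  have h0 : ker T 1 k.1 = ker T 2 k.1 * (1 - T * k.1) := by
    have h1 := ker_succ_div T k.1 1 1
    rw [h1, pow_one, div_mul_cancel₀ _ hv]
  have hw := y2_sub_Z2 hT.1.ne'
  unfold gK gI gX
  rw [← hw, show 2 - 1 = 1 from rfl, show 2 + 1 = 3 from rfl, show 2 + 2 = 4 from rfl, h0]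
  push_cast
  ring

lemma continuousOn_ty : ContinuousOn (fun T => T * y2 T) (Ico 0 1) := by
  intro T hT
  rcases eq_or_lt_of_le hT.1 with h | h
  · subst h
    have hb : Tendsto (fun T : ℝ => π / 4 * (T - T * log T)) (𝓝[Ico 0 1] 0) (𝓝 0) := by
      have hc : Continuous (fun T : ℝ => π / 4 * (T - T * log T)) :=
        continuous_const.mul (continuous_id.sub continuous_mul_log)
      have := (hc.tendsto 0).mono_left (nhdsWithin_le_nhds (s := Ico (0 : ℝ) 1))
      simpa using this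
    have h0 : (0 : ℝ) * y2 0 = 0 := zero_mul _
    rw [ContinuousWithinAt, h0]
    refine squeeze_zero' ?_ ?_ hb
    · filter_upwards [self_mem_nhdsWithin] with x hx
      exact mul_nonneg hx.1 (y2_nonneg x)
    · filter_upwards [self_mem_nhdsWithin] with x hx
      rcases eq_or_lt_of_le hx.1 with h | h
      · rw [← h]; simp
      · have h1 := y2_sub_Z2 h.ne'
        have h2 := Z2_le ⟨h, hx.2.le⟩
        have h3 := EE_le (T := x) (by nlinarith [hx.2])
        have h4 : y2 x ≤ π / 4 * (1 - log x) := by linarith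
        calc x * y2 x ≤ x * (π / 4 * (1 - log x)) := mul_le_mul_of_nonneg_left h4 h.le
          _ = _ := by ring
  · exact (continuousAt_id.mul (continuousAt_y2 h)).continuousWithinAt

lemma continuousOn_e2 : ContinuousOn e2 (Ico 0 1) := by
  intro T hT
  rcases eq_or_lt_of_le hT.1 with h | h
  · subst h
    have hb : Tendsto (fun T : ℝ => π * (1 - T) ^ 2 * T ^ (1 / 2 : ℝ)) (𝓝[Ico 0 1] 0) (𝓝 0) := by
      have hc : Continuous (fun T : ℝ => π * (1 - T) ^ 2 * T ^ (1 / 2 : ℝ)) :=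
        (by fun_prop : Continuous fun T : ℝ => π * (1 - T) ^ 2).mul
          (continuous_id.rpow_const fun _ => Or.inr (by norm_num))
      have := (hc.tendsto 0).mono_left (nhdsWithin_le_nhds (s := Ico (0 : ℝ) 1))
      rwa [zero_rpow (by norm_num), mul_zero] at this
    have h0 : e2 0 = 0 := by unfold e2; rw [zero_mul]
    rw [ContinuousWithinAt, h0]
    refine squeeze_zero' ?_ ?_ hb
    · filter_upwards [self_mem_nhdsWithin] with x hx
      exact e2_nonneg ⟨hx.1, hx.2.le⟩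
    · filter_upwards [self_mem_nhdsWithin] with x hx
      rcases eq_or_lt_of_le hx.1 with h | h
      · rw [← h, h0, zero_rpow (by norm_num), mul_zero]
      · exact e2_le ⟨h, hx.2.le⟩
  · exact (hasDerivAt_e2 ⟨h, hT.2⟩).continuousAt.continuousWithinAt

lemma contOn_gX : ContinuousOn (uncurry fun T k => gX (EE T / 2) (T * y2 T) (e2 T) (r2 T) T k)
    (Ico 0 1 ×ˢ KK) := by
  have h1 := contOn_ker 1
  have h2 := contOn_ker 2
  have h3 := contOn_ker 3
  have h4 := contOn_ker 4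
  have c1 : ContinuousOn (fun z : ℝ × R4 => EE z.1 / 2) (Ico 0 1 ×ˢ KK) :=
    (continuous_EE.continuousOn.comp continuousOn_fst (fun z _ => mem_univ z.1)).div_const 2
  have c2 : ContinuousOn (fun z : ℝ × R4 => z.1 * y2 z.1) (Ico 0 1 ×ˢ KK) :=
    continuousOn_ty.comp continuousOn_fst (fun z hz => hz.1)
  have c3 : ContinuousOn (fun z : ℝ × R4 => e2 z.1) (Ico 0 1 ×ˢ KK) :=
    continuousOn_e2.comp continuousOn_fst (fun z hz => hz.1)
  have c4 : ContinuousOn (fun z : ℝ × R4 => r2 z.1) (Ico 0 1 ×ˢ KK) :=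
    (continuousOn_r2.mono Ico_subset_Icc_self).comp continuousOn_fst (fun z hz => hz.1)
  unfold uncurry gX
  fun_prop

lemma measurable_gX (w ty e r T : ℝ) : Measurable (gX w ty e r T) := by
  have h1 := measurable_ker T 1
  have h2 := measurable_ker T 2
  have h3 := measurable_ker T 3
  have h4 := measurable_ker T 4
  unfold gX
  fun_prop

section

variable {X : Type*} [MeasurableSpace X] {E : Type*} [NormedAddCommGroup E]
  [InnerProductSpace ℝ E] [MeasurableSpace E] [BorelSpace E] [SecondCountableTopology E]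
  {μ : Measure X} [IsFiniteMeasure μ] {p n : X → E}

lemma integral_inner_prod [CompleteSpace E] (hn : Integrable n μ)
    (hnn : Integrable (fun q : X × X => ⟪n q.1, n q.2⟫) (μ.prod μ)) :
    ∫ q : X × X, ⟪n q.1, n q.2⟫ ∂(μ.prod μ) = ‖∫ x, n x ∂μ‖ ^ 2 := by
  rw [integral_prod_symm _ hnn]
  have : ∀ z, ∫ x, ⟪n x, n z⟫ ∂μ = ⟪∫ x, n x ∂μ, n z⟫ := by
    intro z
    rw [real_inner_comm, ← integral_inner hn]
    refine integral_congr_ae (Eventually.of_forall fun x => ?_)
    simp only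
    rw [real_inner_comm]
  simp only [this]
  rw [integral_inner hn, real_inner_self_eq_norm_sq]

/-- the limit of the functional at T = 0 -/
theorem tendsto_GG_zero [CompleteSpace E] (h : Two μ 2 p n) (hn : Integrable n μ)
    (hnn : Integrable (fun q : X × X => ⟪n q.1, n q.2⟫) (μ.prod μ)) :
    Tendsto (GG μ 2 p n y2 Z2 e2 r2) (𝓝[>] 0)
      (𝓝 (μ.real univ ^ 2 + 2 * r2 0 * ‖∫ x, n x ∂μ‖ ^ 2)) := by
  have hc : ContinuousOn (fun T => ∫ q, gX (EE T / 2) (T * y2 T) (e2 T) (r2 T) T (SM2.pr p n q)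
      ∂(μ.prod μ)) (Ico 0 1) :=
    contOn_param (μ.prod μ) h.measurable_pr isCompact_KK h.pr_mem
      (g := fun T k => gX (EE T / 2) (T * y2 T) (e2 T) (r2 T) T k)
      (fun T => measurable_gX _ _ _ _ T) contOn_gX
  have h0 := hc 0 ⟨le_rfl, one_pos⟩
  have e0 : ∫ q, gX (EE 0 / 2) (0 * y2 0) (e2 0) (r2 0) 0 (SM2.pr p n q) ∂(μ.prod μ)
      = μ.real univ ^ 2 + 2 * r2 0 * ‖∫ x, n x ∂μ‖ ^ 2 := by
    have e1 : ∀ q, gX (EE 0 / 2) (0 * y2 0) (e2 0) (r2 0) 0 (SM2.pr p n q)
        = 1 + 2 * r2 0 * ⟪n q.1, n q.2⟫ := by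
      intro q
      unfold gX SM2.pr SM2.ker e2
      rw [EE_zero]
      simp only [mul_zero, zero_mul, sub_zero, one_pow, inv_one]
      ring
    simp only [e1]
    rw [integral_add (integrable_const _) (hnn.const_mul _), integral_const, integral_const_mul,
      integral_inner_prod hn hnn, smul_eq_mul, mul_one, ← univ_prod_univ, measureReal_prod_prod]
    ring
  rw [ContinuousWithinAt, e0] at h0
  have h1 : Tendsto (fun T => ∫ q, gX (EE T / 2) (T * y2 T) (e2 T) (r2 T) T (SM2.pr p n q)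
      ∂(μ.prod μ)) (𝓝[>] 0) (𝓝 (μ.real univ ^ 2 + 2 * r2 0 * ‖∫ x, n x ∂μ‖ ^ 2)) := by
    refine h0.mono_left (nhdsWithin_le_iff.2 ?_)
    filter_upwards [Ioo_mem_nhdsGT (zero_lt_one (α := ℝ))] with x hx
    exact ⟨hx.1.le, hx.2⟩
  refine h1.congr' ?_
  filter_upwards [Ioo_mem_nhdsGT (zero_lt_one (α := ℝ))] with T hT
  unfold GG
  refine integral_congr_ae (Eventually.of_forall fun q => ?_)
  exact (gK_eq_gX hT (h.pr_mem q).1.2).symm

end

end Vale.Agent.P224.R2.H758
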